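import Vale.Agent.P218.H588.Mom
import Vale.Agent.P218.H313.Sec

/-! The two dynamic statements of the interface `H313.Sec`: `Moments` and `Dyn`. -/

open MeasureTheory Set Filter Topology Metric
open scoped ENNReal NNReal RealInnerProductSpace CompactlySupported

namespace Vale.Agent.P218.H313

variable {E : Type*} [NormedAddCommGroup E] [InnerProductSpace ℝ E] [FiniteDimensional ℝ E]
  [MeasurableSpace E] [BorelSpace E]

/-- moments: all the weighted squared distances are controlled by the unweighted one and the drop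
of the Gaussian area one unit of time before -/
def Moments (N : ℝ → Measure E) (s₀ : ℝ) : Prop :=
  ∀ (c K : ℝ) (p : ℕ), 0 < c → 0 ≤ K → ∃ C : ℝ, 0 ≤ C ∧ ∀ W : E → ℝ, TubeD W c K →
    ∀ s, s₀ + 1 ≤ s →
      DD (N s) W p ≤ C * (DD (N s) W 0 + (FA (N (s - 1)) - FA (N s)))

/-- the two-sided estimate: `W` times a function of polynomial growth moves with speed `EE`, up to
an error `ε DD + C Δ` -/
def Dyn (m : ℕ) (N : ℝ → Measure E) (T : ℝ → E → Submodule ℝ E) (H : ℝ → E → E)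
    (s₀ : ℝ) : Prop :=
  ∀ (c K : ℝ) (p : ℕ), 0 < c → 0 ≤ K → ∃ δ : ℝ, 0 < δ ∧ ∀ ε : ℝ, 0 < ε → ∃ C : ℝ, 0 ≤ C ∧
    ∀ W : E → ℝ, TubeD W c K → ∀ (ψ : E → ℝ) (A : ℝ), 0 ≤ A → PG ψ →
      (∀ x, |ψ x| ≤ A * (|W x| * (1 + ‖x‖) ^ p)) →
      ∀ a b : ℝ, s₀ + 1 ≤ a → a ≤ b → b ≤ a + δ →
      ∀ (v : ℝ) (Θ : ℝ → ℝ), IntervalIntegrable Θ volume a b →
        (∀ᵐ s ∂(volume.restrict (Icc a b)), GSlice m (N s) (T s) (H s) →
          |EE (N s) (T s) (H s) ψ - v| ≤ Θ s) →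
        |∫ x, ψ x * rho x ∂(N b) - ∫ x, ψ x * rho x ∂(N a) - (b - a) * v|
          ≤ (∫ s in a..b, Θ s)
            + A * (ε * DD (N a) W 0 + C * (FA (N (a - 1)) - FA (N b)))

end Vale.Agent.P218.H313

namespace Vale.Agent.P218.H588

open Vale.Agent.P214 (IntegralVarifold proj divAlong IsTestField)
open Vale.Agent.P218.H313

set_option linter.unusedSectionVars false
set_option linter.unusedVariables false

variable {E : Type*} [NormedAddCommGroup E] [InnerProductSpace ℝ E] [FiniteDimensional ℝ E]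
  [MeasurableSpace E] [BorelSpace E]
variable {m : ℕ}
variable {N : ℝ → Measure E} {T : ℝ → E → Submodule ℝ E} {H : ℝ → E → E} {s₀ : ℝ}

/-- `Moments` holds for the rescaled flow -/
theorem moments_of_RF (h : RF m N T H s₀) (hE : Module.finrank ℝ E = m + 1) :
    Moments N s₀ := fun _ _ p hc hK => moments h hE hc hK p

lemma RF_integrable (h : RF m N T H s₀) {s : ℝ} (hs : s₀ ≤ s) {u : E → ℝ} (hu : Continuous u)
    (hub : PB u) : Integrable (fun x => u x * rho x) (N s) := by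
  obtain ⟨C', p, hC', hub'⟩ := hub
  obtain ⟨M', hM'⟩ := h.moment p
  refine ((hM' s hs).1.const_mul C').mono' ?_ (Eventually.of_forall fun x => ?_)
  · exact (hu.mul continuous_rho).aestronglyMeasurable
  · rw [norm_mul, Real.norm_of_nonneg (rho_pos x).le, ← mul_assoc]
    exact mul_le_mul_of_nonneg_right (hub' x) (rho_pos x).le

lemma growth_le {w x : ℝ} {M : ℝ} (hM : 0 < M) (hx : 0 ≤ x) (p : ℕ) :
    |w| * (1 + x) ^ p ≤ 2 ^ p * (M + M⁻¹ * (w ^ 2 * (1 + x ^ 2) ^ p)) := by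
  have h1 : (1 + x) ^ 2 ≤ 2 * (1 + x ^ 2) := by nlinarith [sq_nonneg (x - 1)]
  have h2 : ((1 + x) ^ p) ^ 2 ≤ 2 ^ p * (1 + x ^ 2) ^ p := by
    rw [← mul_pow, ← pow_mul, mul_comm p 2, pow_mul]
    exact pow_le_pow_left₀ (by positivity) h1 p
  have h3 : (1 : ℝ) ≤ 2 ^ p := one_le_pow₀ (by norm_num)
  set y := (1 + x) ^ p with hy
  set z := (1 + x ^ 2) ^ p with hz
  have hy0 : 0 ≤ y := by positivity
  have h4 : |w| * y ≤ M + M⁻¹ * (w ^ 2 * y ^ 2) := by
    have h5 : M + M⁻¹ * (w ^ 2 * y ^ 2) - |w| * y = M⁻¹ * ((|w| * y - M / 2) ^ 2 + 3 / 4 * M ^ 2) := by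
      rw [← sq_abs w]
      field_simp
      ring
    have h6 : 0 ≤ M⁻¹ * ((|w| * y - M / 2) ^ 2 + 3 / 4 * M ^ 2) := by positivity
    linarith
  have h7 : M⁻¹ * (w ^ 2 * y ^ 2) ≤ M⁻¹ * (w ^ 2 * (2 ^ p * z)) := by gcongr
  have h8 : M ≤ 2 ^ p * M := le_mul_of_one_le_left hM.le h3
  calc |w| * y ≤ M + M⁻¹ * (w ^ 2 * y ^ 2) := h4
    _ ≤ 2 ^ p * M + M⁻¹ * (w ^ 2 * (2 ^ p * z)) := by linarith
    _ = _ := by ring

/-- the comparison function of the two-sided estimate -/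
noncomputable def cmp (A₁ M : ℝ) (p : ℕ) (W : E → ℝ) (x : E) : ℝ :=
  A₁ * (M + M⁻¹ * (W x ^ 2 * wt p x))

lemma pg_cmp {c K : ℝ} {W : E → ℝ} (hW : TubeD W c K) (A₁ M : ℝ) (p : ℕ) :
    PG (cmp A₁ M p W) := ((PG.const M).add ((pg_sq_wt hW p).const_mul M⁻¹)).const_mul A₁

lemma grad_cmp_add {c K : ℝ} {W η : E → ℝ} (hW : TubeD W c K) (hη : PG η) (A₁ M : ℝ) (p : ℕ)
    (x : E) : grad (fun x => cmp A₁ M p W x + η x) x
      = (A₁ * M⁻¹) • grad (fun x => W x ^ 2 * wt p x) x + grad η x := by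
  have hfpg := pg_sq_wt hW p
  have e1 : grad (fun x => cmp A₁ M p W x + η x) x = grad (cmp A₁ M p W) x + grad η x :=
    grad_add ((pg_cmp hW A₁ M p).diff x) (hη.diff x)
  have e2 : grad (fun x => M + M⁻¹ * (W x ^ 2 * wt p x)) x
      = grad (fun _ : E => M) x + grad (fun x => M⁻¹ * (W x ^ 2 * wt p x)) x :=
    grad_add ((PG.const M).diff x) ((hfpg.const_mul M⁻¹).diff x)
  have e3 : grad (fun _ : E => M) x = 0 := grad_unique fun v => by simp
  have e4 : grad (cmp A₁ M p W) x = A₁ • grad (fun x => M + M⁻¹ * (W x ^ 2 * wt p x)) x :=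
    grad_const_mul A₁ (((PG.const M).add (hfpg.const_mul M⁻¹)).diff x)
  rw [e1, e4, e2, e3, zero_add, grad_const_mul M⁻¹ (hfpg.diff x), smul_smul]

/-- the rate of the comparison function plus `η` -/
lemma rate_cmp {μ : Measure E} {T : E → Submodule ℝ E} {H : E → E} (hs : GSlice m μ T H)
    {c K : ℝ} {W η : E → ℝ} (hW : TubeD W c K) (hη : PG η) {A₁ M : ℝ} {p : ℕ} (hA₁ : 0 ≤ A₁)
    (hM : 0 < M) (hη2 : ∀ x, |η x| ≤ 1 / 2 * cmp A₁ M p W x) :
    LL μ T H (fun x => cmp A₁ M p W x + η x)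
      ≤ A₁ * M⁻¹ * (LL μ T H (fun x => W x ^ 2 * wt p x) + 1 / 2 * VW μ T H W p)
        + EE μ T H η := by
  have hfpg := pg_sq_wt hW p
  have hfp : PG (fun x => cmp A₁ M p W x + η x) := (pg_cmp hW A₁ M p).add hη
  have hvPG : ∀ {u : E → ℝ}, PG u →
      Integrable (fun x => ⟪grad u x, vel T H x⟫ * rho x) μ := fun {u} hu =>
    hs.integrable_inner_vel (continuous_grad hu.cd).aestronglyMeasurable
      (hu.b1.mono fun x => by rw [norm_grad])
  have hqPG : ∀ {u : E → ℝ}, PG u →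
      Integrable (fun x => u x * ‖vel T H x‖ ^ 2 * rho x) μ := fun {u} hu =>
    hs.integrable_mul_vel_sq hu.cont.aestronglyMeasurable hu.b0
  have s1 : ∫ x, ⟪grad (fun x => cmp A₁ M p W x + η x) x, vel T H x⟫ * rho x ∂μ
      = A₁ * M⁻¹ * ∫ x, ⟪grad (fun x => W x ^ 2 * wt p x) x, vel T H x⟫ * rho x ∂μ
        + EE μ T H η := by
    have := integral_comb2 (hvPG hfpg) (hvPG hη) (A₁ * M⁻¹) 1
    rw [one_mul] at this
    unfold EE
    rw [← this]
    congr 1; ext x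
    rw [grad_cmp_add hW hη, inner_add_left, real_inner_smul_left]; ring
  have s2 : ∫ x, (cmp A₁ M p W x + η x) * ‖vel T H x‖ ^ 2 * rho x ∂μ
      = A₁ * M * dis μ T H + A₁ * M⁻¹ * VW μ T H W p
        + ∫ x, η x * ‖vel T H x‖ ^ 2 * rho x ∂μ := by
    have := integral_comb hs.int_vel_sq (hs.int_VW hW p) (hqPG hη) (A₁ * M) (A₁ * M⁻¹) 1
    rw [one_mul] at this
    have e : A₁ * M * dis μ T H + A₁ * M⁻¹ * VW μ T H W p
        + ∫ x, η x * ‖vel T H x‖ ^ 2 * rho x ∂μ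
        = A₁ * M * ∫ x, ‖vel T H x‖ ^ 2 * rho x ∂μ
          + A₁ * M⁻¹ * ∫ x, W x ^ 2 * wt p x * ‖vel T H x‖ ^ 2 * rho x ∂μ
          + ∫ x, η x * ‖vel T H x‖ ^ 2 * rho x ∂μ := rfl
    rw [e, ← this]
    congr 1; ext x
    simp only [cmp]; ring
  have s3 : ∫ x, ⟪grad (fun x => W x ^ 2 * wt p x) x, vel T H x⟫ * rho x ∂μ
      = LL μ T H (fun x => W x ^ 2 * wt p x) + VW μ T H W p := by
    rw [hs.LL_eq hfpg]
    unfold VW
    ring
  have s4 : - ∫ x, η x * ‖vel T H x‖ ^ 2 * rho x ∂μ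
      ≤ 1 / 2 * (A₁ * M * dis μ T H + A₁ * M⁻¹ * VW μ T H W p) := by
    have := integral_comb2 hs.int_vel_sq (hs.int_VW hW p) (1 / 2 * (A₁ * M))
      (1 / 2 * (A₁ * M⁻¹))
    have e5 : 1 / 2 * (A₁ * M * dis μ T H + A₁ * M⁻¹ * VW μ T H W p)
        = ∫ x, (1 / 2 * (A₁ * M) * (‖vel T H x‖ ^ 2 * rho x)
          + 1 / 2 * (A₁ * M⁻¹) * (W x ^ 2 * wt p x * ‖vel T H x‖ ^ 2 * rho x)) ∂μ := by
      rw [this]
      unfold dis VW
      ring
    rw [e5, ← integral_neg]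
    refine integral_mono (hqPG hη).neg
      ((hs.int_vel_sq.const_mul _).add ((hs.int_VW hW p).const_mul _)) fun x => ?_
    have h1 := neg_abs_le (η x)
    have h2 := hη2 x
    have h3 : 0 ≤ ‖vel T H x‖ ^ 2 * rho x := mul_nonneg (sq_nonneg _) (rho_pos x).le
    have h4 : -η x ≤ 1 / 2 * cmp A₁ M p W x := by linarith
    have h5 := mul_le_mul_of_nonneg_right h4 h3
    have h6 : 1 / 2 * cmp A₁ M p W x * (‖vel T H x‖ ^ 2 * rho x)
        = 1 / 2 * (A₁ * M) * (‖vel T H x‖ ^ 2 * rho x)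
          + 1 / 2 * (A₁ * M⁻¹) * (W x ^ 2 * wt p x * ‖vel T H x‖ ^ 2 * rho x) := by
      simp only [cmp]; ring
    simp only
    linarith
  have s9 := dis_nonneg (μ := μ) (T := T) (H := H)
  have t2 : 0 ≤ A₁ * M * dis μ T H := by positivity
  rw [hs.LL_eq hfp, s1, s2, s3]
  linarith

/-- the one-sided estimate -/
lemma dyn_key (h : RF m N T H s₀) {c K : ℝ} {p : ℕ} {C₀ δ : ℝ} (hC₀ : 0 ≤ C₀)
    (hLL : ∀ (W : E → ℝ), TubeD W c K → ∀ (μ : Measure E) (T : E → Submodule ℝ E)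
      (H : E → E), GSlice m μ T H →
      LL μ T H (fun x => W x ^ 2 * wt p x)
        ≤ - TG μ T W p - 1 / 2 * VW μ T H W p + C₀ * DD μ W p)
    {W : E → ℝ} (hW : TubeD W c K) {a b : ℝ} (ha0 : s₀ ≤ a) (hab : a ≤ b) (hb : b ≤ a + δ)
    (hD : ∀ s ∈ Icc a b, DD (N s) W p ≤ 2 * DD (N a) W p)
    {A₁ M : ℝ} (hA₁0 : 0 ≤ A₁) (hM0 : 0 < M)
    {Θ : ℝ → ℝ} (hΘ : IntervalIntegrable Θ volume a b) {η : E → ℝ} {w : ℝ} (hη : PG η)
    (hη2 : ∀ x, |η x| ≤ 1 / 2 * cmp A₁ M p W x)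
    (hr : ∀ᵐ s ∂(volume.restrict (Icc a b)), GSlice m (N s) (T s) (H s) →
          EE (N s) (T s) (H s) η ≤ w + Θ s) :
    ∫ x, η x * rho x ∂(N b) - ∫ x, η x * rho x ∂(N a) - (b - a) * w
      ≤ (∫ s in a..b, Θ s) + A₁ * M * (FA (N a) - FA (N b))
        + A₁ * M⁻¹ * (1 + 2 * C₀ * δ) * DD (N a) W p := by
  have hDa := DD_nonneg (μ := N a) (W := W) p
  have hDb := DD_nonneg (μ := N b) (W := W) p
  have hfpg := pg_sq_wt hW p
  set f : E → ℝ := fun x => cmp A₁ M p W x + η x with hf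
  have hfp : PG f := (pg_cmp hW A₁ M p).add hη
  have hbase : ∀ x, 0 ≤ cmp A₁ M p W x := fun x => by
    have := wt_pos p x; unfold cmp; positivity
  have hfnn : ∀ x, 0 ≤ f x := fun x => by
    have h1 := neg_abs_le (η x)
    have h2 := hη2 x
    have h3 := hbase x
    simp only [hf]; linarith
  obtain ⟨i1, i2⟩ := h.ineq_PG hfp hfnn ha0 hab
  -- evaluation of the integrals of `f`
  have hev : ∀ s, s₀ ≤ s → ∫ x, f x * rho x ∂(N s)
      = A₁ * M * FA (N s) + A₁ * M⁻¹ * DD (N s) W p + ∫ x, η x * rho x ∂(N s) := by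
    intro s hs
    have j1 : Integrable (fun x => rho x) (N s) := by
      simpa using RF_integrable h hs (u := fun _ => 1) continuous_const (PB.const 1)
    have j2 : Integrable (fun x => W x ^ 2 * wt p x * rho x) (N s) :=
      RF_integrable h hs hfpg.cont hfpg.b0
    have j3 : Integrable (fun x => η x * rho x) (N s) := RF_integrable h hs hη.cont hη.b0
    have e := integral_comb j1 j2 j3 (A₁ * M) (A₁ * M⁻¹) 1
    simp only [one_mul] at e
    unfold FA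
    rw [DD_eq, ← e]
    congr 1; ext x; simp only [hf, cmp]; ring
  rw [hev b (ha0.trans hab), hev a ha0] at i2
  have hae : ∀ᵐ s ∂(volume.restrict (Icc a b)), LL (N s) (T s) (H s) f
      ≤ (w + A₁ * M⁻¹ * (C₀ * (2 * DD (N a) W p))) + Θ s := by
    filter_upwards [h.ae_gslice ha0 hab, ae_restrict_mem measurableSet_Icc, hr]
      with s hs hs' hr'
    have hr'' := hr' hs
    have s0 := rate_cmp hs hW hη hA₁0 hM0 hη2
    have s5 := hLL W hW (N s) (T s) (H s) hs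
    have s6 := hD s hs'
    have s7 := TG_nonneg (μ := N s) (T := T s) (W := W) p
    have hq0 : 0 ≤ A₁ * M⁻¹ := by positivity
    have t1 : A₁ * M⁻¹ * (LL (N s) (T s) (H s) (fun x => W x ^ 2 * wt p x)
        + 1 / 2 * VW (N s) (T s) (H s) W p)
        ≤ A₁ * M⁻¹ * (C₀ * (2 * DD (N a) W p)) := by
      refine mul_le_mul_of_nonneg_left ?_ hq0
      have := mul_le_mul_of_nonneg_left s6 hC₀
      linarith
    linarith
  have hint : ∫ s in a..b, LL (N s) (T s) (H s) f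
      ≤ ∫ s in a..b, ((w + A₁ * M⁻¹ * (C₀ * (2 * DD (N a) W p))) + Θ s) :=
    intervalIntegral.integral_mono_ae_restrict hab i1 (intervalIntegrable_const.add hΘ) hae
  rw [intervalIntegral.integral_add intervalIntegrable_const hΘ,
    intervalIntegral.integral_const, smul_eq_mul] at hint
  have hba : b - a ≤ δ := by linarith
  have hba0 : 0 ≤ b - a := by linarith
  have hq0 : 0 ≤ A₁ * M⁻¹ := by positivity
  have u1 : (b - a) * (A₁ * M⁻¹ * (C₀ * (2 * DD (N a) W p)))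
      ≤ A₁ * M⁻¹ * (2 * C₀ * δ) * DD (N a) W p := by
    have : (b - a) * (A₁ * M⁻¹ * (C₀ * (2 * DD (N a) W p)))
        = A₁ * M⁻¹ * (2 * C₀ * (b - a)) * DD (N a) W p := by ring
    rw [this]
    gcongr
  have u3 : 0 ≤ A₁ * M⁻¹ * DD (N b) W p := by positivity
  linarith

lemma EE_neg {μ : Measure E} {T : E → Submodule ℝ E} {H : E → E} {ψ : E → ℝ} (hψ : PG ψ) :
    EE μ T H (fun x => -ψ x) = - EE μ T H ψ := by
  unfold EE
  rw [← integral_neg]
  congr 1; ext x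
  have : grad (fun x => -ψ x) x = - grad ψ x := grad_unique fun v => by
    rw [inner_neg_left, inner_grad]
    have := ((hψ.diff x).hasFDerivAt.neg).fderiv
    have e : (fun x => -ψ x) = -ψ := rfl
    rw [e, this]; rfl
  rw [this, inner_neg_left]; ring

/-- the two-sided estimate -/
theorem dyn_of_RF (h : RF m N T H s₀) (hE : Module.finrank ℝ E = m + 1) : Dyn m N T H s₀ := by
  intro c K p hc hK
  obtain ⟨δ, hδ, hshort⟩ := exists_shortj h hE hc hK p
  obtain ⟨C₀, hC₀, hLL⟩ := exists_LL_le (E := E) hE hc hK p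
  obtain ⟨C₁, hC₁, hmom⟩ := moments h hE hc hK p
  refine ⟨δ, hδ, fun ε hε => ?_⟩
  set B : ℝ := 2 ^ (p + 1) * (1 + 2 * C₀ * δ) * C₁ with hB
  have hB0 : 0 ≤ B := by positivity
  set M : ℝ := B / ε + 1 with hM
  have hM0 : 0 < M := by positivity
  have hMB : B * M⁻¹ ≤ ε := by
    rw [← div_eq_mul_inv, div_le_iff₀ hM0, hM]
    have : ε * (B / ε + 1) = B + ε := by field_simp
    rw [this]; linarith
  refine ⟨2 ^ (p + 1) * M + ε, by positivity,
    fun W hW ψ A hA hψ hψb a b ha hab hb v Θ hΘ hrate => ?_⟩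
  have ha0 : s₀ ≤ a := by linarith
  obtain ⟨hD, -⟩ := hshort W hW a b ha0 hab hb
  have hm1 := hmom W hW a ha
  have hdr1 : 0 ≤ FA (N (a - 1)) - FA (N a) := by
    linarith [h.FA_anti (a := a - 1) (b := a) (by linarith) (by linarith)]
  have hdr2 : 0 ≤ FA (N a) - FA (N b) := by linarith [h.FA_anti ha0 hab]
  set A₁ := A * 2 ^ (p + 1) with hA₁
  have hA₁0 : 0 ≤ A₁ := by positivity
  have hcmp : ∀ (η : E → ℝ), (∀ x, |η x| ≤ A * (|W x| * (1 + ‖x‖) ^ p)) →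
      ∀ x, |η x| ≤ 1 / 2 * cmp A₁ M p W x := by
    intro η hηb x
    refine (hηb x).trans ((mul_le_mul_of_nonneg_left
      (growth_le (w := W x) hM0 (norm_nonneg x) p) hA).trans (le_of_eq ?_))
    rw [hA₁, pow_succ]
    unfold cmp wt
    ring
  have k1 := dyn_key h hC₀ hLL hW ha0 hab hb hD hA₁0 hM0 hΘ (w := v) hψ (hcmp ψ hψb) (by
    filter_upwards [hrate] with s hs hg
    have := (abs_le.1 (hs hg)).2
    linarith)
  have k2 := dyn_key h hC₀ hLL hW ha0 hab hb hD hA₁0 hM0 hΘ (w := -v) hψ.neg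
    (hcmp (fun x => -ψ x) (fun x => by rw [abs_neg]; exact hψb x)) (by
    filter_upwards [hrate] with s hs hg
    have h1 := (abs_le.1 (hs hg)).1
    rw [EE_neg hψ]
    linarith)
  have e : ∀ s, ∫ x, -ψ x * rho x ∂(N s) = - ∫ x, ψ x * rho x ∂(N s) := by
    intro s
    rw [← integral_neg]
    congr 1; ext x; ring
  rw [e, e] at k2
  have u2 : A₁ * M⁻¹ * (1 + 2 * C₀ * δ) * DD (N a) W p
      ≤ A * (ε * (DD (N a) W 0 + (FA (N (a - 1)) - FA (N a)))) := by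
    have v1 : A₁ * M⁻¹ * (1 + 2 * C₀ * δ) * DD (N a) W p
        ≤ A₁ * M⁻¹ * (1 + 2 * C₀ * δ) * (C₁ * (DD (N a) W 0 + (FA (N (a - 1)) - FA (N a)))) := by
      gcongr
    refine v1.trans ?_
    have v2 : A₁ * M⁻¹ * (1 + 2 * C₀ * δ) * (C₁ * (DD (N a) W 0 + (FA (N (a - 1)) - FA (N a))))
        = A * (B * M⁻¹ * (DD (N a) W 0 + (FA (N (a - 1)) - FA (N a)))) := by
      rw [hA₁, hB]; ring
    rw [v2]
    have hD0 := DD_nonneg (μ := N a) (W := W) 0
    gcongr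
  have u4 : A₁ * M * (FA (N a) - FA (N b)) = A * (2 ^ (p + 1) * M * (FA (N a) - FA (N b))) := by
    rw [hA₁]; ring
  have u5 : A * (2 ^ (p + 1) * M * (FA (N a) - FA (N b)))
      + A * (ε * (DD (N a) W 0 + (FA (N (a - 1)) - FA (N a))))
      ≤ A * (ε * DD (N a) W 0 + (2 ^ (p + 1) * M + ε) * (FA (N (a - 1)) - FA (N b))) := by
    rw [← mul_add]
    refine mul_le_mul_of_nonneg_left ?_ hA
    have w1 : 2 ^ (p + 1) * M * (FA (N a) - FA (N b))
        ≤ 2 ^ (p + 1) * M * (FA (N (a - 1)) - FA (N b)) := by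
      gcongr
      linarith
    have w2 : ε * (FA (N (a - 1)) - FA (N a)) ≤ ε * (FA (N (a - 1)) - FA (N b)) := by
      gcongr
      linarith
    linarith
  rw [abs_le]
  constructor
  · linarith
  · linarith

end Vale.Agent.P218.H588
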