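import Vale.Agent.P218.H588.Stat3
import Vale.Agent.P218.H313.SecMain
import Vale.Agent.P218.H923.Inst
import Vale.Agent.P218.H63.X9
import Vale.Agent.P218.H969.DynP
import Vale.Agent.P218.H969.NatAll

/-! Second-order nondegenerate shrinkers: uniqueness of tangent flows. -/

open MeasureTheory Set Filter Topology Metric
open scoped ENNReal NNReal RealInnerProductSpace CompactlySupported

namespace Vale.Agent.P218.H588

open Vale.Agent.P218.H63 (IsTubeShrinker IsJacobiField gaussArea stab)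
open Vale.Agent.P218.H313

variable {E : Type*} [NormedAddCommGroup E] [InnerProductSpace ℝ E] [FiniteDimensional ℝ E]
  [MeasurableSpace E] [BorelSpace E]
variable {m k : ℕ} {S : Set E} {w : E → ℝ} {δ C : ℝ} {q : ℕ} {v : Fin k → E → ℝ}

/-- moments of a weak limit -/
lemma mom_of_weak {N : ℕ → Measure E} {κ : Measure E} [IsLocallyFiniteMeasure κ]
    (hw : WeakTendsto N κ) (p : ℕ) {C : ℝ}
    (hC : ∀ᶠ i in atTop, Integrable (fun x => (1 + ‖x‖) ^ p * rho x) (N i) ∧
      ∫ x, (1 + ‖x‖) ^ p * rho x ∂(N i) ≤ C) :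
    Integrable (fun x => (1 + ‖x‖) ^ p * rho x) κ := by
  have hcont : Continuous (fun x : E => (1 + ‖x‖) ^ p * rho x) :=
    ((continuous_const.add continuous_norm).pow p).mul continuous_rho
  have hpos : ∀ x : E, 0 ≤ (1 + ‖x‖) ^ p * rho x := fun x =>
    mul_nonneg (by positivity) (rho_pos x).le
  -- bound for the truncated integrals
  have hn : ∀ n : ℕ, ∫ x, cut n x * ((1 + ‖x‖) ^ p * rho x) ∂κ ≤ C := by
    intro n
    have h1 := hw (fun x => cut n x * ((1 + ‖x‖) ^ p * rho x))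
      ((continuous_cut n).mul hcont) (cut_compact n).mul_right
    refine le_of_tendsto h1 ?_
    filter_upwards [hC] with i hi
    refine (integral_mono_of_nonneg (Eventually.of_forall fun x =>
      mul_nonneg (cut_nonneg n x) (hpos x)) hi.1
        (Eventually.of_forall fun x => ?_)).trans hi.2
    exact mul_le_of_le_one_left (hpos x) (cut_le_one n x)
  have hint : ∀ n : ℕ, Integrable (fun x => cut n x * ((1 + ‖x‖) ^ p * rho x)) κ := fun n =>
    ((continuous_cut n).mul hcont).integrable_of_hasCompactSupport (cut_compact n).mul_right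
  refine ⟨hcont.aestronglyMeasurable, ?_⟩
  have key : ∫⁻ x, ‖(1 + ‖x‖) ^ p * rho x‖ₑ ∂κ ≤ ENNReal.ofReal C := by
    have hlim : ∀ x : E, Tendsto (fun n : ℕ => ‖cut n x * ((1 + ‖x‖) ^ p * rho x)‖ₑ) atTop
        (𝓝 ‖(1 + ‖x‖) ^ p * rho x‖ₑ) := by
      intro x
      have h1 := (tendsto_cut x).mul_const ((1 + ‖x‖) ^ p * rho x)
      rw [one_mul] at h1
      exact h1.enorm
    calc ∫⁻ x, ‖(1 + ‖x‖) ^ p * rho x‖ₑ ∂κ
        = ∫⁻ x, liminf (fun n : ℕ => ‖cut n x * ((1 + ‖x‖) ^ p * rho x)‖ₑ) atTop ∂κ := by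
          congr 1; ext x; exact (hlim x).liminf_eq.symm
      _ ≤ liminf (fun n : ℕ => ∫⁻ x, ‖cut n x * ((1 + ‖x‖) ^ p * rho x)‖ₑ ∂κ) atTop :=
          lintegral_liminf_le fun n => ((continuous_cut n).mul hcont).measurable.enorm
      _ ≤ ENNReal.ofReal C := by
          refine liminf_le_of_le ⟨0, by simp⟩ fun b hb => ?_
          obtain ⟨n, hbn⟩ := hb.exists
          refine hbn.trans ?_
          have e : ∫⁻ x, ‖cut n x * ((1 + ‖x‖) ^ p * rho x)‖ₑ ∂κ
              = ENNReal.ofReal (∫ x, cut n x * ((1 + ‖x‖) ^ p * rho x) ∂κ) := by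
            rw [ofReal_integral_eq_lintegral_ofReal (hint n) (Eventually.of_forall fun x =>
              mul_nonneg (cut_nonneg n x) (hpos x))]
            congr 1; ext x
            rw [Real.enorm_of_nonneg (mul_nonneg (cut_nonneg n x) (hpos x))]
          rw [e]
          exact ENNReal.ofReal_le_ofReal (hn n)
  exact key.trans_lt ENNReal.ofReal_lt_top

/-- moments of the tangent slices -/
lemma mom_of_slice {μ : ℝ → Measure E} (hμ : IsIntegralBrakkeFlow m μ) (h0 : μ 0 univ < ⊤)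
    (x₀ : E) {t₀ : ℝ} (ht : 0 < t₀) {κ : Measure E} (hκ : κ ∈ tangentSlices m μ x₀ t₀) (p : ℕ) :
    Integrable (fun x => (1 + ‖x‖) ^ p * rho x) κ := by
  obtain ⟨T, H, s₀, hRF⟩ := exists_RF hμ h0 x₀ ht
  obtain ⟨T', H', hB, -⟩ := A1.exists_BF_slice hμ
  rw [H552.tangentSlices_eq hB h0 x₀ ht] at hκ
  obtain ⟨hlf, τ, hτ, hτκ⟩ := hκ
  obtain ⟨C, hC⟩ := hRF.moment p
  refine mom_of_weak hτκ p (C := C) ?_
  filter_upwards [(hτ.const_mul_atTop (two_pos (α := ℝ))).eventually_ge_atTop s₀] with i hi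
  have h1 := hC (2 * τ i) hi
  have e : 2 * τ i / 2 = τ i := by ring
  rw [e] at h1
  exact h1

/-- **Uniqueness of the tangent flow** at a point where some tangent flow is a self-shrinker with
multiplicity one, a uniform tubular neighbourhood, and whose Jacobi fields are, modulo the
rotations, obstructed to second order. -/
theorem unique_of_second_order (hm : 0 < m) (hE : Module.finrank ℝ E = m + 1)
    (hS : IsTubeShrinker S w δ C)
    (h3 : ∀ x, |w x| < δ → ‖fderiv ℝ (fderiv ℝ (gradient w)) x‖ ≤ C * (1 + ‖x‖) ^ q)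
    (hv : IsJacobiBasis m S w δ C q v) (hnd : SecondOrderNondegenerate m S w v)
    {μ : ℝ → Measure E} (hμ : IsIntegralBrakkeFlow m μ) (h0 : μ 0 univ < ⊤) (x₀ : E) {t₀ : ℝ}
    (ht : 0 < t₀) (hκ : (μH[m] : Measure E).restrict S ∈ tangentSlices m μ x₀ t₀) :
    TangentFlowUnique m μ x₀ t₀ := by
  obtain ⟨W, c, K, q', M', l, b, hW, hM', hWS, hinj, hD⟩ := H969.exists_sod hE hS h3 hv hnd
  subst hWS
  obtain ⟨r, K₁, q₁, V', hF, hV'⟩ := cayFam hE hW M' hM'
  have hmom := mom_of_slice hμ h0 x₀ ht hκ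
  obtain ⟨C₀, J₀, B, hI⟩ := X8.inp_of_sod hm hE hD hmom
  have hQ := X8.phiQ_of_sod hD hmom
  have hη : ∀ (j : Fin l) (x : E),
      (fun (j : Fin l) (x : E) => -2 * ⟪grad W x, (b j : E →L[ℝ] E) x⟫) j x = V' 0 (b j) x :=
    fun j x => (hV' (b j) x).symm
  have hV0 : ∀ x, W (cay ((0 : M') : E →L[ℝ] E) x) = W x := by
    intro x
    simp [cay_zero]
  have hset : {x : E | W (cay ((0 : M') : E →L[ℝ] E) x) = 0} = {x | W x = 0} := by
    ext x; simp only [mem_setOf_eq, hV0]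
  have hZ := H923.sec_of_sod hM' hD hmom b hη hQ r
  have hkK : (0 : ℝ) ≤ 2 * (k * K) := by
    have := hW.K_nonneg
    positivity
  have hc := hW.cpos
  have hK₁ : 0 ≤ K₁ := (hF.tube 0 (by simpa using hF.rpos.le)).K_nonneg
  refine Fam.unique2 (k := k) (Z := H923.cayZ v M')
    (Q := X8.phiQ ((μH[m] : Measure E).restrict {x | W x = 0}) W v) (q' := q' + 1)
    hm hE hF hkK hμ h0 x₀ ht ?_ ?_ ?_ ?_
  · rw [hset]; exact hκ
  · intro B hB
    rw [hset] at hB
    refine hinj B ?_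
    filter_upwards [hB] with x hx
    rw [hV'] at hx
    linarith
  · rw [hset]; exact hZ
  · intro N T H s₀ hRF hlf
    rw [hset] at hlf ⊢
    obtain ⟨J₁, hSt⟩ := H923.st_of_sod hRF hM' hD hF b hη hQ
      (fun CM CR => ⟨J₀ + 1, static_rate hm hE hD hI CM CR⟩)
      (fun CM CR => static_coer hm hE hD CM CR)
      (fun CM CR => ⟨J₀ + 1, static_co hm hE hD hI CM CR⟩)
    obtain ⟨δ', hdyn⟩ := H969.dynP_of_RF hRF hE hc hK₁ (q' + 1) J₁
    exact ⟨J₁, δ', hdyn, H969.tg_bd hRF hE hc hK₁ J₁, hSt J₁ le_rfl⟩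

end Vale.Agent.P218.H588
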