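import Vale.Agent.P218.H63.Defs

/-! Second-order nondegenerate shrinkers: the natural hypotheses. -/

open MeasureTheory Set Filter Topology
open scoped ENNReal NNReal

namespace Vale.Agent.P218.H588

open Vale.Agent.P218.H63

variable {E : Type*} [NormedAddCommGroup E] [InnerProductSpace ℝ E] [FiniteDimensional ℝ E]
  [MeasurableSpace E] [BorelSpace E]

/-- the symmetric cubic form of the self-shrinker `S = {w = 0}` (third variation of the Gaussian
area on its Jacobi fields, up to a constant factor): with `A = D²w`, the second fundamental form on `S`,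
`∫ (u A(∇v, ∇z) + v A(∇z, ∇u) + z A(∇u, ∇v) - tr(A³) u v z) e^{-|x|²/4} dH^m`. -/
noncomputable def cubicForm (m : ℕ) (S : Set E) (w u v z : E → ℝ) : ℝ :=
  ∫ x, (u x * inner ℝ (fderiv ℝ (gradient w) x (gradient v x)) (gradient z x)
    + v x * inner ℝ (fderiv ℝ (gradient w) x (gradient z x)) (gradient u x)
    + z x * inner ℝ (fderiv ℝ (gradient w) x (gradient u x)) (gradient v x)
    - LinearMap.trace ℝ E ((fderiv ℝ (gradient w) x).comp
        ((fderiv ℝ (gradient w) x).comp (fderiv ℝ (gradient w) x))).toLinearMap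
      * (u x * v x * z x)) ∂(gaussArea m S)

/-- `v 1, …, v k` is an orthonormal basis, for the Gaussian area, of the square integrable Jacobi
fields of `S = {w = 0}` orthogonal to the infinitesimal rotations; the `v i` are extended to `C³`
functions on `E`, constant along the normals in the tube `{|w| < δ}`, whose derivatives up to
order three have polynomial growth. -/
structure IsJacobiBasis (m : ℕ) (S : Set E) (w : E → ℝ) (δ C : ℝ) (q : ℕ) {k : ℕ}
    (v : Fin k → E → ℝ) : Prop where
  smooth : ∀ i, ContDiff ℝ 3 (v i)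
  growth : ∀ i x, ∀ n ≤ 3, ‖iteratedFDeriv ℝ n (v i) x‖ ≤ C * (1 + ‖x‖) ^ q
  normal : ∀ i x, |w x| < δ → inner ℝ (gradient (v i) x) (gradient w x) = 0
  jacobi : ∀ i, ∀ x ∈ S, stab w (v i) x = 0
  orthonormal : ∀ i j, ∫ x, v i x * v j x ∂(gaussArea m S) = if i = j then 1 else 0
  rotation : ∀ i, ∀ A : E →L[ℝ] E, (∀ x, inner ℝ (A x) x = 0) →
    ∫ x, v i x * inner ℝ (A x) (gradient w x) ∂(gaussArea m S) = 0
  span : ∀ u : E → ℝ, IsJacobiField m S w u →
    ∃ (a : Fin k → ℝ) (A : E →L[ℝ] E), (∀ x, inner ℝ (A x) x = 0) ∧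
      u =ᵐ[gaussArea m S] fun x => ∑ i, a i * v i x + inner ℝ (A x) (gradient w x)

/-- no Jacobi field `u ≠ 0` orthogonal to the rotations extends to second order: if
`cubicForm u u z = 0` for all such Jacobi fields `z`, then `u = 0` -/
def SecondOrderNondegenerate (m : ℕ) (S : Set E) (w : E → ℝ) {k : ℕ} (v : Fin k → E → ℝ) : Prop :=
  ∀ a : Fin k → ℝ, (∀ i, cubicForm m S w (fun x => ∑ j, a j * v j x)
    (fun x => ∑ j, a j * v j x) (v i) = 0) → a = 0

end Vale.Agent.P218.H588
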