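import Vale.Agent.P218.H588.Q

/-! Higher moments of the squared distance, and the Brakke defect. -/

open MeasureTheory Set Filter Topology Metric
open scoped ENNReal NNReal RealInnerProductSpace CompactlySupported

namespace Vale.Agent.P218.H588

open Vale.Agent.P214 (IntegralVarifold proj divAlong IsTestField)
open Vale.Agent.P218.H313

set_option linter.unusedSectionVars false
set_option linter.unusedVariables false

variable {E : Type*} [NormedAddCommGroup E] [InnerProductSpace ℝ E] [FiniteDimensional ℝ E]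
  [MeasurableSpace E] [BorelSpace E]
variable {m : ℕ} {c K : ℝ}

lemma wt_succ (j : ℕ) (x : E) : wt (j + 1) x = wt j x * (1 + ‖x‖ ^ 2) := by
  unfold wt; rw [pow_succ]

/-- one more moment of the squared distance -/
theorem exists_DD_succ_le (j : ℕ) (hK : 0 ≤ K) :
    ∃ C : ℝ, 0 ≤ C ∧ ∀ (W : E → ℝ), TubeD W c K → ∀ (μ : Measure E) (T : E → Submodule ℝ E)
      (H : E → E), GSlice m μ T H →
        DD μ W (j + 1) ≤ C * (DD μ W j + TG μ T W j + VW μ T H W j) := by
  refine ⟨1 + 8 * (m + 2 * (j : ℝ) ^ 2 + 8 + 2), by positivity, fun W hW μ T H hS => ?_⟩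
  have hTG := TG_nonneg (μ := μ) (T := T) (W := W) j
  have hVW := VW_nonneg (μ := μ) (T := T) (H := H) (W := W) j
  have hDD := DD_nonneg (μ := μ) (W := W) j
  set F : E → ℝ := fun x => W x ^ 2 * wt j x with hF
  have hFpg : PG F := pg_sq_wt hW j
  have hXpg : PG (fun x => F x • x) := hFpg.smul PG.id'
  have hwfv := hS.wfv hXpg.cd hXpg.b0 hXpg.b1
  -- integrability
  have i0 := hS.int_DD hW j
  have i1 := hS.int_TG hW j
  have i2 := hS.int_VW hW j
  have iq : Integrable (fun x => W x ^ 2 * wt j x * ‖x‖ ^ 2 * rho x) μ :=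
    hS.integrable_PB (((hW.cont.pow 2).mul (PG.wt j).cont).mul
      (continuous_norm.pow 2)).aestronglyMeasurable
      (((hW.pg.b0.pow 2).mul (PG.wt j).b0).mul PB.normSq)
  set Q := ∫ x, W x ^ 2 * wt j x * ‖x‖ ^ 2 * rho x ∂μ with hQ
  have eD1 : DD μ W (j + 1) = DD μ W j + Q := by
    have := integral_comb2 i0 iq 1 1
    simp only [one_mul] at this
    rw [DD_eq j, hQ, ← this, DD_eq (j + 1)]
    congr 1
    ext x
    rw [wt_succ]
    ring
  have hdivle : 1 / 2 * Q ≤ (m + 2 * (j : ℝ) ^ 2) * DD μ W j + (2 / 8 * Q + 8 * TG μ T W j)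
      + (1 / 8 * Q + 2 * VW μ T H W j) := by
    have e1 : 1 / 2 * Q = ∫ x, (divAlong (T x) (fun x => F x • x) x * rho x) ∂μ
        + ∫ x, ⟪F x • x, vel T H x⟫ * rho x ∂μ := by
      have j1 := hS.integrable_div hXpg.cd hXpg.b1
      have j2 : ∫ x, (divAlong (T x) (fun x => F x • x) x - 1 / 2 * ⟪x, F x • x⟫) * rho x ∂μ
          = ∫ x, divAlong (T x) (fun x => F x • x) x * rho x ∂μ - 1 / 2 * Q := by
        have := integral_comb2 j1 iq 1 (-(1 / 2))
        simp only [one_mul, neg_mul, ← sub_eq_add_neg] at this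
        rw [hQ, ← this]
        congr 1
        ext x
        rw [real_inner_smul_right, real_inner_self_eq_norm_sq]
        simp only [hF]
        ring
      rw [j2] at hwfv
      linarith
    have e2 : ∫ x, (divAlong (T x) (fun x => F x • x) x * rho x) ∂μ
        ≤ (m + 2 * (j : ℝ) ^ 2) * DD μ W j + (2 / 8 * Q + 8 * TG μ T W j) := by
      have e3 : (m + 2 * (j : ℝ) ^ 2) * DD μ W j + (2 / 8 * Q + 8 * TG μ T W j)
          = ∫ x, ((m + 2 * (j : ℝ) ^ 2) * (W x ^ 2 * wt j x * rho x)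
            + 2 / 8 * (W x ^ 2 * wt j x * ‖x‖ ^ 2 * rho x)
            + 8 * (wt j x * ‖proj (T x) (grad W x)‖ ^ 2 * rho x)) ∂μ := by
        rw [integral_comb i0 iq i1]
        change _ = (m + 2 * (j : ℝ) ^ 2) * DD μ W j + 2 / 8 * Q + 8 * TG μ T W j
        ring
      rw [e3]
      refine integral_mono_ae (hS.integrable_div hXpg.cd hXpg.b1)
        (((i0.const_mul _).add (iq.const_mul _)).add (i1.const_mul _)) ?_
      filter_upwards [hS.mc.dim] with x hx
      have h4 := rho_pos x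
      have hw := wt_pos j x
      have h5 : divAlong (T x) (fun x => F x • x) x
          = W x ^ 2 * wt j x * m + 2 * W x * wt j x * ⟪proj (T x) (grad W x), x⟫
            + W x ^ 2 * ⟪proj (T x) (grad (wt j) x), x⟫ := by
        rw [divAlong_smul (T x) (hFpg.diff x) differentiableAt_fun_id, divAlong_id, hx, hF,
          grad_sq_wt hW j x, map_add, map_smul, map_smul, inner_add_left,
          real_inner_smul_left, real_inner_smul_left]
        ring
      rw [h5]
      have hp := abs_real_inner_le_norm (proj (T x) (grad W x)) x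
      have hq : |⟪proj (T x) (grad (wt j) x), x⟫| ≤ j * wt j x * ‖x‖ :=
        (abs_real_inner_le_norm _ _).trans (mul_le_mul_of_nonneg_right
          ((norm_proj_apply_le _ _).trans (norm_grad_wt_le j x)) (norm_nonneg _))
      set P := ‖proj (T x) (grad W x)‖ with hP
      have hP0 : 0 ≤ P := norm_nonneg _
      have hx0 : 0 ≤ ‖x‖ := norm_nonneg x
      have h6 : 2 * W x * wt j x * ⟪proj (T x) (grad W x), x⟫
          ≤ (1 / 8 * (W x ^ 2 * ‖x‖ ^ 2) + 8 * P ^ 2) * wt j x := by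
        have g1 : W x * ⟪proj (T x) (grad W x), x⟫ ≤ |W x| * (P * ‖x‖) := by
          refine (le_abs_self _).trans ?_
          rw [abs_mul]
          exact mul_le_mul_of_nonneg_left hp (abs_nonneg _)
        have g2 : 2 * (|W x| * (P * ‖x‖)) ≤ 1 / 8 * (W x ^ 2 * ‖x‖ ^ 2) + 8 * P ^ 2 := by
          rw [← sq_abs (W x)]
          nlinarith [sq_nonneg (|W x| * ‖x‖ - 8 * P)]
        have g3 : 2 * W x * wt j x * ⟪proj (T x) (grad W x), x⟫
            = 2 * (W x * ⟪proj (T x) (grad W x), x⟫) * wt j x := by ring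
        rw [g3]
        refine mul_le_mul_of_nonneg_right ?_ hw.le
        linarith
      have h7 : W x ^ 2 * ⟪proj (T x) (grad (wt j) x), x⟫
          ≤ W x ^ 2 * wt j x * (1 / 8 * ‖x‖ ^ 2 + 2 * (j : ℝ) ^ 2) := by
        have g1 : ⟪proj (T x) (grad (wt j) x), x⟫ ≤ j * wt j x * ‖x‖ :=
          (le_abs_self _).trans hq
        have g2 : (j : ℝ) * ‖x‖ ≤ 1 / 8 * ‖x‖ ^ 2 + 2 * (j : ℝ) ^ 2 := by
          nlinarith [sq_nonneg (‖x‖ - 4 * (j : ℝ))]
        have g3 : (j : ℝ) * wt j x * ‖x‖ ≤ wt j x * (1 / 8 * ‖x‖ ^ 2 + 2 * (j : ℝ) ^ 2) := by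
          have := mul_le_mul_of_nonneg_left g2 hw.le
          linarith
        have := mul_le_mul_of_nonneg_left (g1.trans g3) (sq_nonneg (W x))
        linarith
      have h8 : W x ^ 2 * wt j x * m + 2 * W x * wt j x * ⟪proj (T x) (grad W x), x⟫
            + W x ^ 2 * ⟪proj (T x) (grad (wt j) x), x⟫
          ≤ (m + 2 * (j : ℝ) ^ 2) * (W x ^ 2 * wt j x) + 2 / 8 * (W x ^ 2 * wt j x * ‖x‖ ^ 2)
            + 8 * (wt j x * P ^ 2) := by
        linarith
      have h9 := mul_le_mul_of_nonneg_right h8 h4.le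
      linarith
    have e4 : ∫ x, ⟪F x • x, vel T H x⟫ * rho x ∂μ ≤ 1 / 8 * Q + 2 * VW μ T H W j := by
      have e5 : 1 / 8 * Q + 2 * VW μ T H W j
          = ∫ x, (1 / 8 * (W x ^ 2 * wt j x * ‖x‖ ^ 2 * rho x)
          + 2 * (W x ^ 2 * wt j x * ‖vel T H x‖ ^ 2 * rho x)) ∂μ := by
        rw [integral_comb2 iq i2]; rfl
      rw [e5]
      refine integral_mono (hS.integrable_inner_vel hXpg.cont.aestronglyMeasurable hXpg.b0)
        ((iq.const_mul _).add (i2.const_mul _)) fun x => ?_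
      have h4 := rho_pos x
      have hw := wt_pos j x
      have h6 : ⟪F x • x, vel T H x⟫ ≤ 1 / 8 * (W x ^ 2 * wt j x * ‖x‖ ^ 2)
          + 2 * (W x ^ 2 * wt j x * ‖vel T H x‖ ^ 2) := by
        rw [real_inner_smul_left]
        have h7 : ⟪x, vel T H x⟫ ≤ ‖x‖ * ‖vel T H x‖ := real_inner_le_norm _ _
        have h8 : ‖x‖ * ‖vel T H x‖ ≤ 1 / 8 * ‖x‖ ^ 2 + 2 * ‖vel T H x‖ ^ 2 := by
          nlinarith [sq_nonneg (‖x‖ - 4 * ‖vel T H x‖)]
        have h9 := mul_le_mul_of_nonneg_left (h7.trans h8)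
          (mul_nonneg (sq_nonneg (W x)) hw.le)
        simp only [hF]
        linarith
      have h7 := mul_le_mul_of_nonneg_right h6 h4.le
      simp only
      linarith
    linarith
  rw [eD1]
  have hm0 : (0 : ℝ) ≤ m := m.cast_nonneg
  have h8 : Q ≤ 8 * ((m + 2 * (j : ℝ) ^ 2) * DD μ W j + 8 * TG μ T W j + 2 * VW μ T H W j) := by
    linarith
  have hs : 0 ≤ DD μ W j + TG μ T W j + VW μ T H W j := by positivity
  have hj0 : 0 ≤ 2 * (j : ℝ) ^ 2 := by positivity
  have a1 : (m + 2 * (j : ℝ) ^ 2) * DD μ W j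
      ≤ (m + 2 * (j : ℝ) ^ 2) * (DD μ W j + TG μ T W j + VW μ T H W j) :=
    mul_le_mul_of_nonneg_left (by linarith) (by positivity)
  linarith

section avg

/-- a point of an interval where an integrable function is at most its average -/
lemma exists_le_avg {a b : ℝ} (hab : a < b) {G : ℝ → ℝ} (hG : IntervalIntegrable G volume a b)
    {p : ℝ → Prop} (hp : ∀ᵐ s ∂(volume.restrict (Icc a b)), p s) :
    ∃ s ∈ Icc a b, p s ∧ G s ≤ (∫ s in a..b, G s) / (b - a) := by
  have h1 : IntegrableOn G (Ioc a b) volume := (intervalIntegrable_iff_integrableOn_Ioc_of_le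
    hab.le).1 hG
  have h2 : ∀ᵐ s ∂(volume.restrict (Ioc a b)), p s ∧ s ∈ Ioc a b := by
    filter_upwards [ae_restrict_of_ae_restrict_of_subset Ioc_subset_Icc_self hp,
      ae_restrict_mem measurableSet_Ioc] with s h3 h4 using ⟨h3, h4⟩
  have h3 : (volume.restrict (Ioc a b)) ≠ 0 := by
    intro h0
    have : (volume.restrict (Ioc a b)) univ = 0 := by rw [h0]; rfl
    rw [Measure.restrict_apply_univ, Real.volume_Ioc, ENNReal.ofReal_eq_zero] at this
    linarith
  have : IsFiniteMeasure (volume.restrict (Ioc a b)) := ⟨by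
    rw [Measure.restrict_apply_univ, Real.volume_Ioc]; exact ENNReal.ofReal_lt_top⟩
  obtain ⟨s, hs, hs'⟩ := exists_notMem_null_le_average h3 h1 (ae_iff.1 h2)
  simp only [mem_ofPred_eq, not_not] at hs
  refine ⟨s, Ioc_subset_Icc_self hs.2, hs.1, hs'.trans (le_of_eq ?_)⟩
  rw [average_eq, intervalIntegral.integral_of_le hab.le, measureReal_restrict_apply_univ,
    Real.volume_real_Ioc_of_le hab.le, smul_eq_mul, inv_mul_eq_div]

end avg

section flow

variable {N : ℝ → Measure E} {T : ℝ → E → Submodule ℝ E} {H : ℝ → E → E} {s₀ : ℝ}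

/-- short time estimate with weight `j` -/
theorem exists_shortj (h : RF m N T H s₀) (hE : Module.finrank ℝ E = m + 1) (hc : 0 < c)
    (hK : 0 ≤ K) (j : ℕ) :
    ∃ δ : ℝ, 0 < δ ∧ ∀ W : E → ℝ, TubeD W c K → ∀ a b : ℝ, s₀ ≤ a → a ≤ b → b ≤ a + δ →
      (∀ s ∈ Icc a b, DD (N s) W j ≤ 2 * DD (N a) W j) ∧
      ∃ G : ℝ → ℝ, IntervalIntegrable G volume a b ∧
        (∀ᵐ s ∂(volume.restrict (Icc a b)), GSlice m (N s) (T s) (H s) ∧
          TG (N s) (T s) W j + 1 / 2 * VW (N s) (T s) (H s) W j ≤ G s) ∧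
        ∫ s in a..b, G s ≤ 2 * DD (N a) W j := by
  obtain ⟨C, hC, hLL⟩ := exists_LL_le (E := E) hE hc hK j
  obtain ⟨M, hM⟩ := h.moment (2 * j)
  refine ⟨1 / (2 * (C + 1)), by positivity, fun W hW a b ha hab hb => ?_⟩
  have hpg := pg_sq_wt hW j
  have hnn : ∀ x, 0 ≤ W x ^ 2 * wt j x := fun x => mul_nonneg (sq_nonneg _) (wt_pos j x).le
  -- upper bound
  have hbd : ∀ s, s₀ ≤ s → DD (N s) W j ≤ K ^ 2 * M := by
    intro s hs
    obtain ⟨i1, i2⟩ := hM s hs
    refine le_trans ?_ (mul_le_mul_of_nonneg_left i2 (sq_nonneg K))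
    rw [← integral_const_mul]
    refine integral_mono_of_nonneg (Eventually.of_forall fun x => ?_) (i1.const_mul _)
      (Eventually.of_forall fun x => ?_)
    · have := rho_pos x
      simp only [Pi.zero_apply]; positivity
    · have h1 := hW.b0 x
      have h2 : W x ^ 2 ≤ K ^ 2 := by rw [← sq_abs]; gcongr
      have h3 : (1 + ‖x‖ ^ 2) ^ j ≤ (1 + ‖x‖) ^ (2 * j) := by
        rw [pow_mul]
        exact pow_le_pow_left₀ (by positivity) (by nlinarith [norm_nonneg x]) _
      have h4 := rho_pos x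
      calc W x ^ 2 * (1 + ‖x‖ ^ 2) ^ j * rho x ≤ K ^ 2 * (1 + ‖x‖) ^ (2 * j) * rho x := by gcongr
        _ = _ := by ring
  set S := sSup ((fun s => DD (N s) W j) '' Icc a b) with hS
  have hbdd : BddAbove ((fun s => DD (N s) W j) '' Icc a b) := by
    refine ⟨K ^ 2 * M, ?_⟩
    rintro _ ⟨s, hs, rfl⟩
    exact hbd s (ha.trans hs.1)
  have hne : ((fun s => DD (N s) W j) '' Icc a b).Nonempty := ⟨_, a, left_mem_Icc.2 hab, rfl⟩
  have hle : ∀ s ∈ Icc a b, DD (N s) W j ≤ S := fun s hs => le_csSup hbdd ⟨s, hs, rfl⟩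
  have hS0 : 0 ≤ S := (DD_nonneg (μ := N a) (W := W) j).trans (hle a (left_mem_Icc.2 hab))
  -- the rate
  have hrate : ∀ᵐ s ∂(volume.restrict (Icc a b)), GSlice m (N s) (T s) (H s) ∧
      LL (N s) (T s) (H s) (fun x => W x ^ 2 * wt j x)
        ≤ - TG (N s) (T s) W j - 1 / 2 * VW (N s) (T s) (H s) W j + C * S := by
    filter_upwards [h.ae_gslice ha hab, ae_restrict_mem measurableSet_Icc] with s hs hs'
    have h1 := hLL W hW (N s) (T s) (H s) hs
    have h2 := mul_le_mul_of_nonneg_left (hle s hs') hC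
    exact ⟨hs, by linarith⟩
  have hδ : C * (b - a) ≤ 1 / 2 := by
    have h1 : b - a ≤ 1 / (2 * (C + 1)) := by linarith
    calc C * (b - a) ≤ C * (1 / (2 * (C + 1))) := by gcongr
      _ ≤ 1 / 2 := by
          rw [mul_one_div, div_le_div_iff₀ (by positivity) (by norm_num)]
          nlinarith
  have hSle : S ≤ DD (N a) W j + 1 / 2 * S := by
    refine csSup_le hne ?_
    rintro _ ⟨s, hs, rfl⟩
    obtain ⟨i1, i2⟩ := h.ineq_PG hpg hnn ha hs.1
    have i3 : ∫ t in a..s, LL (N t) (T t) (H t) (fun x => W x ^ 2 * wt j x)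
        ≤ ∫ t in a..s, C * S := by
      refine intervalIntegral.integral_mono_ae_restrict hs.1 i1 intervalIntegrable_const ?_
      have h5 := ae_restrict_of_ae_restrict_of_subset (Icc_subset_Icc_right hs.2) hrate
      filter_upwards [h5] with t ht
      have h3 := TG_nonneg (μ := N t) (T := T t) (W := W) j
      have h4 := VW_nonneg (μ := N t) (T := T t) (H := H t) (W := W) j
      linarith [ht.2]
    rw [intervalIntegral.integral_const, smul_eq_mul] at i3
    have h6 : (s - a) * (C * S) ≤ 1 / 2 * S := by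
      have : (s - a) * (C * S) = C * (s - a) * S := by ring
      rw [this]
      refine mul_le_mul_of_nonneg_right ?_ hS0
      exact (mul_le_mul_of_nonneg_left (by linarith [hs.2]) hC).trans hδ
    have e : ∀ s, ∫ x, W x ^ 2 * wt j x * rho x ∂(N s) = DD (N s) W j := fun s => rfl
    rw [e, e] at i2
    simp only
    linarith
  have hS2 : S ≤ 2 * DD (N a) W j := by linarith
  refine ⟨fun s hs => (hle s hs).trans hS2, fun s => C * S
    - LL (N s) (T s) (H s) (fun x => W x ^ 2 * wt j x), ?_, ?_, ?_⟩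
  · exact intervalIntegrable_const.sub (h.ineq_PG hpg hnn ha hab).1
  · filter_upwards [hrate] with s hs
    exact ⟨hs.1, by linarith [hs.2]⟩
  · obtain ⟨i1, i2⟩ := h.ineq_PG hpg hnn ha hab
    rw [intervalIntegral.integral_sub intervalIntegrable_const i1,
      intervalIntegral.integral_const, smul_eq_mul]
    have e : ∀ s, ∫ x, W x ^ 2 * wt j x * rho x ∂(N s) = DD (N s) W j := fun s => rfl
    rw [e, e] at i2
    have h6 : (b - a) * (C * S) ≤ 1 / 2 * S := by
      have : (b - a) * (C * S) = C * (b - a) * S := by ring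
      rw [this]
      exact mul_le_mul_of_nonneg_right hδ hS0
    have h7 := DD_nonneg (μ := N b) (W := W) j
    linarith

/-- the squared distance does not decrease fast -/
theorem exists_back (h : RF m N T H s₀) (hE : Module.finrank ℝ E = m + 1) (hc : 0 < c)
    (hK : 0 ≤ K) :
    ∃ δ : ℝ, 0 < δ ∧ ∃ C : ℝ, 0 ≤ C ∧ ∀ W : E → ℝ, TubeD W c K → ∀ a b : ℝ, s₀ ≤ a → a ≤ b →
      b ≤ a + δ → DD (N a) W 0 ≤ C * (DD (N b) W 0 + (FA (N a) - FA (N b))) := by
  obtain ⟨δ₁, hδ₁, hshort⟩ := exists_shortj h hE hc hK 0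
  refine ⟨min δ₁ (1 / 4), by positivity, 2 * (1 + 3 * K ^ 2), by positivity,
    fun W hW a b ha hab hb => ?_⟩
  have hb1 : b ≤ a + δ₁ := hb.trans (by linarith [min_le_left δ₁ (1 / 4)])
  have hb2 : b - a ≤ 1 / 4 := by linarith [min_le_right δ₁ (1 / 4 : ℝ)]
  obtain ⟨hD, -⟩ := hshort W hW a b ha hab hb1
  have hdrop : 0 ≤ FA (N a) - FA (N b) := by linarith [h.FA_anti ha hab]
  have hDa := DD_nonneg (μ := N a) (W := W) 0
  have hDb := DD_nonneg (μ := N b) (W := W) 0
  set f : E → ℝ := fun x => K ^ 2 - W x ^ 2 with hf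
  have hf1 : PG (fun x => W x ^ 2) := hW.pg.pow 2
  have hfpg : PG f := (PG.const (K ^ 2)).sub hf1
  have hfnn : ∀ x, 0 ≤ f x := fun x => by
    have h1 := hW.b0 x
    have h2 : W x ^ 2 ≤ K ^ 2 := by rw [← sq_abs]; gcongr
    simp only [hf]; linarith
  obtain ⟨i1, i2⟩ := h.ineq_PG hfpg hfnn ha hab
  obtain ⟨d1, d2⟩ := h.dis_int ha hab
  have hev : ∀ s, s₀ ≤ s → ∫ x, f x * rho x ∂(N s) = K ^ 2 * FA (N s) - DD (N s) W 0 := by
    intro s hs
    have hmomI : ∀ {u : E → ℝ}, Continuous u → PB u →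
        Integrable (fun x => u x * rho x) (N s) := by
      intro u hu hub
      obtain ⟨C', p, hC', hub'⟩ := hub
      obtain ⟨M', hM'⟩ := h.moment p
      refine ((hM' s hs).1.const_mul C').mono' ?_ (Eventually.of_forall fun x => ?_)
      · exact (hu.mul continuous_rho).aestronglyMeasurable
      · rw [norm_mul, Real.norm_of_nonneg (rho_pos x).le, ← mul_assoc]
        exact mul_le_mul_of_nonneg_right (hub' x) (rho_pos x).le
    have j1 : Integrable (fun x => rho x) (N s) := by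
      simpa using hmomI (u := fun _ => 1) continuous_const (PB.const 1)
    have j2 : Integrable (fun x => W x ^ 2 * wt 0 x * rho x) (N s) :=
      hmomI (pg_sq_wt hW 0).cont (pg_sq_wt hW 0).b0
    have := integral_comb2 j1 j2 (K ^ 2) (-1)
    rw [DD_eq]
    unfold FA
    have e : K ^ 2 * ∫ x, rho x ∂(N s) - ∫ x, W x ^ 2 * wt 0 x * rho x ∂(N s)
        = K ^ 2 * ∫ x, rho x ∂(N s) + -1 * ∫ x, W x ^ 2 * wt 0 x * rho x ∂(N s) := by ring
    rw [e, ← this]
    congr 1; ext x
    simp only [hf, wt, pow_zero]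
    ring
  rw [hev b (ha.trans hab), hev a ha] at i2
  have hrate : ∫ s in a..b, LL (N s) (T s) (H s) f
      ≤ ∫ s in a..b, (2 * DD (N a) W 0 + 2 * K ^ 2 * dis (N s) (T s) (H s)) := by
    refine intervalIntegral.integral_mono_ae_restrict hab i1
      (intervalIntegrable_const.add (d1.const_mul _)) ?_
    filter_upwards [h.ae_gslice ha hab, ae_restrict_mem measurableSet_Icc] with s hs hs'
    have hDs := hD s hs'
    -- the rate
    have k0 := hs.int_DD hW 0
    have k1 := hs.int_vel_sq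
    have k3 : Integrable (fun x => ⟪grad f x, vel (T s) (H s) x⟫ * rho x) (N s) :=
      hs.integrable_inner_vel (continuous_grad hfpg.cd).aestronglyMeasurable
            (hfpg.b1.mono fun x => by rw [norm_grad])
    have k4 : Integrable (fun x => f x * ‖vel (T s) (H s) x‖ ^ 2 * rho x) (N s) :=
      hs.integrable_mul_vel_sq hfpg.cont.aestronglyMeasurable hfpg.b0
    have e1 : LL (N s) (T s) (H s) f ≤ DD (N s) W 0 + K ^ 2 * dis (N s) (T s) (H s) := by
      rw [hs.LL_eq hfpg]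
      have e2 : 0 ≤ ∫ x, f x * ‖vel (T s) (H s) x‖ ^ 2 * rho x ∂(N s) :=
        integral_nonneg fun x => mul_nonneg (mul_nonneg (hfnn x) (sq_nonneg _)) (rho_pos x).le
      have e3 : ∫ x, ⟪grad f x, vel (T s) (H s) x⟫ * rho x ∂(N s)
          ≤ DD (N s) W 0 + K ^ 2 * dis (N s) (T s) (H s) := by
        have e4 := integral_comb2 k0 k1 1 (K ^ 2)
        have e5 : DD (N s) W 0 + K ^ 2 * dis (N s) (T s) (H s)
            = ∫ x, (1 * (W x ^ 2 * wt 0 x * rho x)
              + K ^ 2 * (‖vel (T s) (H s) x‖ ^ 2 * rho x)) ∂(N s) := by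
          rw [e4, one_mul]; rfl
        rw [e5]
        refine integral_mono k3 ((k0.const_mul _).add (k1.const_mul _)) fun x => ?_
        have g1 : grad f x = (-(2 * W x)) • grad W x := by
          refine grad_unique fun v => ?_
          have h1 : HasFDerivAt f (-((2 * W x) • fderiv ℝ W x)) x := by
            have := ((hW.diff x).hasFDerivAt.pow 2).const_sub (K ^ 2)
            refine this.congr_fderiv ?_
            ext v; simp
          rw [h1.fderiv, real_inner_smul_left, inner_grad]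
          simp
        have g2 : |⟪grad W x, vel (T s) (H s) x⟫| ≤ K * ‖vel (T s) (H s) x‖ :=
          (abs_real_inner_le_norm _ _).trans
            (mul_le_mul_of_nonneg_right (hW.b1 x) (norm_nonneg _))
        set v := ‖vel (T s) (H s) x‖
        have g3 : ⟪grad f x, vel (T s) (H s) x⟫ ≤ W x ^ 2 + K ^ 2 * v ^ 2 := by
          rw [g1, real_inner_smul_left]
          have g4 : -(2 * W x) * ⟪grad W x, vel (T s) (H s) x⟫ ≤ 2 * (|W x| * (K * v)) := by
            calc -(2 * W x) * ⟪grad W x, vel (T s) (H s) x⟫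
                ≤ |-(2 * W x) * ⟪grad W x, vel (T s) (H s) x⟫| := le_abs_self _
              _ = 2 * (|W x| * |⟪grad W x, vel (T s) (H s) x⟫|) := by
                  rw [abs_mul, abs_neg, abs_mul, abs_two]; ring
              _ ≤ _ := by gcongr
          rw [← sq_abs (W x)]
          nlinarith [sq_nonneg (|W x| - K * v)]
        have g5 := mul_le_mul_of_nonneg_right g3 (rho_pos x).le
        simp only [wt, pow_zero, mul_one, one_mul]
        linarith
      linarith
    have hd0 := dis_nonneg (μ := N s) (T := T s) (H := H s)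
    have hK2 : 0 ≤ K ^ 2 * dis (N s) (T s) (H s) := by positivity
    linarith
  rw [intervalIntegral.integral_add intervalIntegrable_const (d1.const_mul _),
    intervalIntegral.integral_const, intervalIntegral.integral_const_mul, smul_eq_mul] at hrate
  have h7 : (b - a) * (2 * DD (N a) W 0) ≤ 1 / 2 * DD (N a) W 0 := by
    have : (b - a) * (2 * DD (N a) W 0) ≤ 1 / 4 * (2 * DD (N a) W 0) :=
      mul_le_mul_of_nonneg_right hb2 (by linarith)
    linarith
  have h8 : 2 * K ^ 2 * ∫ s in a..b, dis (N s) (T s) (H s)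
      ≤ 2 * K ^ 2 * (FA (N a) - FA (N b)) := mul_le_mul_of_nonneg_left d2 (by positivity)
  have h9 : 1 / 2 * DD (N a) W 0 ≤ DD (N b) W 0 + 3 * K ^ 2 * (FA (N a) - FA (N b)) := by
    linarith
  have h10 : 0 ≤ 3 * K ^ 2 * DD (N b) W 0 := by positivity
  linarith

/-- **higher moments** of the squared distance are controlled by the squared distance and the
drop of the Gaussian area on the previous unit of time -/
theorem moments_aux (h : RF m N T H s₀) (hE : Module.finrank ℝ E = m + 1) (hc : 0 < c)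
    (hK : 0 ≤ K) (j : ℕ) : ∀ τ : ℝ, 0 < τ →
    ∃ C : ℝ, 0 ≤ C ∧ ∀ W : E → ℝ, TubeD W c K → ∀ s : ℝ, s₀ + τ ≤ s →
      DD (N s) W j ≤ C * (DD (N s) W 0 + (FA (N (s - τ)) - FA (N s))) := by
  induction j with
  | zero =>
    intro τ hτ
    refine ⟨1, zero_le_one, fun W hW s hs => ?_⟩
    have := h.FA_anti (a := s - τ) (b := s) (by linarith) (by linarith)
    linarith
  | succ j ih =>
    intro τ hτ
    obtain ⟨δ₁, hδ₁, hs1⟩ := exists_shortj h hE hc hK j
    obtain ⟨δ₂, hδ₂, hs2⟩ := exists_shortj h hE hc hK (j + 1)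
    obtain ⟨δ₃, hδ₃, C₃, hC₃, hs3⟩ := exists_back h hE hc hK
    obtain ⟨C₁, hC₁, hst⟩ := exists_DD_succ_le (E := E) (m := m) (c := c) j hK
    obtain ⟨C₂, hC₂, hih⟩ := ih (τ / 2) (half_pos hτ)
    set θ := min (min δ₁ δ₂) (min δ₃ (τ / 2)) with hθ
    have hθ0 : 0 < θ := by positivity
    have t1 : θ ≤ δ₁ := (min_le_left _ _).trans (min_le_left _ _)
    have t2 : θ ≤ δ₂ := (min_le_left _ _).trans (min_le_right _ _)
    have t3 : θ ≤ δ₃ := (min_le_right _ _).trans (min_le_left _ _)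
    have t4 : θ ≤ τ / 2 := (min_le_right _ _).trans (min_le_right _ _)
    refine ⟨2 * (C₁ * (2 + 2 * (2 / θ))) * (C₂ * (C₃ + 1)), by positivity, fun W hW s hs => ?_⟩
    have ha : s₀ ≤ s - θ := by linarith
    obtain ⟨hD, G, hG1, hG2, hG3⟩ := hs1 W hW (s - θ) s ha (by linarith) (by linarith)
    obtain ⟨σ, hσ, ⟨hσ1, hσ2⟩, hσ3⟩ := exists_le_avg (by linarith) hG1 hG2
    set D := DD (N (s - θ)) W j with hDd
    have hD0 : 0 ≤ D := DD_nonneg j
    have e1 : TG (N σ) (T σ) W j + 1 / 2 * VW (N σ) (T σ) (H σ) W j ≤ 2 / θ * D := by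
      refine hσ2.trans (hσ3.trans ?_)
      rw [show s - (s - θ) = θ by ring, div_le_iff₀ hθ0]
      refine hG3.trans (le_of_eq ?_)
      field_simp
    have e2 : DD (N σ) W (j + 1) ≤ C₁ * (2 + 2 * (2 / θ)) * D := by
      refine (hst W hW _ _ _ hσ1).trans ?_
      rw [mul_assoc]
      refine mul_le_mul_of_nonneg_left ?_ hC₁
      have h1 := hD σ hσ
      have h2 := TG_nonneg (μ := N σ) (T := T σ) (W := W) j
      have h3 := VW_nonneg (μ := N σ) (T := T σ) (H := H σ) (W := W) j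
      have h4 : (2 + 2 * (2 / θ)) * D = 2 * D + 2 * (2 / θ * D) := by ring
      rw [h4]
      linarith
    have e3 : DD (N s) W (j + 1) ≤ 2 * DD (N σ) W (j + 1) :=
      (hs2 W hW σ s (ha.trans hσ.1) hσ.2 (by linarith [hσ.1])).1 s (right_mem_Icc.2 hσ.2)
    have e4 : D ≤ C₂ * (DD (N (s - θ)) W 0 + (FA (N (s - θ - τ / 2)) - FA (N (s - θ)))) :=
      hih W hW (s - θ) (by linarith)
    have e5 : DD (N (s - θ)) W 0 ≤ C₃ * (DD (N s) W 0 + (FA (N (s - θ)) - FA (N s))) :=
      hs3 W hW (s - θ) s ha (by linarith) (by linarith)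
    have f1 : FA (N (s - θ - τ / 2)) ≤ FA (N (s - τ)) :=
      h.FA_anti (by linarith) (by linarith)
    have f2 : FA (N (s - θ)) ≤ FA (N (s - τ)) := h.FA_anti (by linarith) (by linarith)
    have f3 : FA (N s) ≤ FA (N (s - θ)) := h.FA_anti ha (by linarith)
    have f4 := DD_nonneg (μ := N s) (W := W) 0
    set Y := DD (N s) W 0 + (FA (N (s - τ)) - FA (N s)) with hY
    have hY0 : 0 ≤ Y := by linarith
    have e6 : DD (N (s - θ)) W 0 ≤ C₃ * Y := e5.trans (mul_le_mul_of_nonneg_left (by linarith) hC₃)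
    have e7 : D ≤ C₂ * (C₃ + 1) * Y := by
      refine e4.trans ?_
      rw [mul_assoc]
      refine mul_le_mul_of_nonneg_left ?_ hC₂
      have : FA (N (s - θ - τ / 2)) - FA (N (s - θ)) ≤ Y := by linarith
      linarith
    calc DD (N s) W (j + 1) ≤ 2 * (C₁ * (2 + 2 * (2 / θ)) * D) := by linarith
      _ ≤ 2 * (C₁ * (2 + 2 * (2 / θ)) * (C₂ * (C₃ + 1) * Y)) := by gcongr
      _ = _ := by ring

/-- **higher moments**, with a unit of time -/
theorem moments (h : RF m N T H s₀) (hE : Module.finrank ℝ E = m + 1) (hc : 0 < c)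
    (hK : 0 ≤ K) (j : ℕ) :
    ∃ C : ℝ, 0 ≤ C ∧ ∀ W : E → ℝ, TubeD W c K → ∀ s : ℝ, s₀ + 1 ≤ s →
      DD (N s) W j ≤ C * (DD (N s) W 0 + (FA (N (s - 1)) - FA (N s))) :=
  moments_aux h hE hc hK j 1 one_pos

end flow

end Vale.Agent.P218.H588
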