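import Vale.Agent.P218.H313.Main

/-! Second-order nondegenerate shrinkers: definitions.

`ζ i` are the Jacobi fields orthogonal to the rotations, `η j` the rotation fields. -/

open MeasureTheory Set Filter Topology Metric
open scoped ENNReal NNReal RealInnerProductSpace CompactlySupported

namespace Vale.Agent.P218.H588

open Vale.Agent.P214 (IntegralVarifold proj divAlong IsTestField)
open Vale.Agent.P218.H313

variable {E : Type*} [NormedAddCommGroup E] [InnerProductSpace ℝ E] [FiniteDimensional ℝ E]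
  [MeasurableSpace E] [BorelSpace E]

/-- a measure, a field of planes, a mean curvature vector -/
structure Tri (E : Type*) [NormedAddCommGroup E] [InnerProductSpace ℝ E]
    [MeasurableSpace E] where
  μ : Measure E
  T : E → Submodule ℝ E
  H : E → E

/-- slices weakly close to `κ`, with moments bounded by `CM` and mass ratios bounded by `CR` -/
noncomputable def nearS (m : ℕ) (κ : Measure E) (CM : ℕ → ℝ) (CR : ℝ) : Filter (Tri E) :=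
  𝓟 {t | GSlice m t.μ t.T t.H ∧ (∀ p, ∫ x, (1 + ‖x‖) ^ p * rho x ∂t.μ ≤ CM p) ∧
      ∀ (x : E) (r : ℝ), 0 < r → r ≤ 1 → t.μ.real (closedBall x r) ≤ CR * r ^ m} ⊓
    ⨅ φ : C_c(E, ℝ), comap (fun t : Tri E => ∫ x, φ x ∂t.μ) (𝓝 (∫ x, φ x ∂κ))

/-- the symmetric cubic form of the shrinker `{W = 0}`, `A = D²W`:
`∫ (u ⟨A ∇v, ∇z⟩ + v ⟨A ∇z, ∇u⟩ + z ⟨A ∇u, ∇v⟩ - tr(A³) u v z) ρ dκ` -/
noncomputable def Phi (κ : Measure E) (W u v z : E → ℝ) : ℝ :=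
  ∫ x, (u x * ⟪fderiv ℝ (grad W) x (grad v x), grad z x⟫
    + v x * ⟪fderiv ℝ (grad W) x (grad z x), grad u x⟫
    + z x * ⟪fderiv ℝ (grad W) x (grad u x), grad v x⟫
    - tr ((fderiv ℝ (grad W) x).comp ((fderiv ℝ (grad W) x).comp (fderiv ℝ (grad W) x)))
      * (u x * v x * z x)) * rho x ∂κ

/-- linear combinations -/
noncomputable def lc {k : ℕ} (ζ : Fin k → E → ℝ) (a : EuclideanSpace ℝ (Fin k)) (x : E) : ℝ :=
  ∑ i, a i * ζ i x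

/-- second-order data of the shrinker `{W = 0}`: `ζ i` is an orthonormal basis of the Jacobi
fields orthogonal to the rotation fields `η j`; polynomial growth of degree `q`. -/
structure SOD (m : ℕ) (κ : Measure E) (W : E → ℝ) (c K : ℝ) (q : ℕ) {k l : ℕ}
    (ζ : Fin k → E → ℝ) (η : Fin l → E → ℝ) : Prop where
  tube : TubeD W c K
  W3 : ContDiff ℝ 3 W
  Wb3 : PB (fderiv ℝ (fderiv ℝ (grad W)))
  dens : ∀ x : E, ∀ c > om m, ∀ᶠ r in 𝓝[>] (0 : ℝ), (∫ y, H313.ker (r⁻¹ • (y - x)) ∂κ) / r ^ m ≤ c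
  zero : ∀ᵐ x ∂κ, W x = 0
  cd : ∀ i, ContDiff ℝ 3 (ζ i)
  b0 : ∀ i x, |ζ i x| ≤ K * (1 + ‖x‖) ^ q
  b1 : ∀ i x, ‖grad (ζ i) x‖ ≤ K * (1 + ‖x‖) ^ q
  b2 : ∀ i x, ‖fderiv ℝ (grad (ζ i)) x‖ ≤ K * (1 + ‖x‖) ^ q
  b3 : ∀ i, PB (fderiv ℝ (fderiv ℝ (grad (ζ i))))
  perp : ∀ i x, |W x| < c → ⟪grad (ζ i) x, grad W x⟫ = 0
  jac0 : ∀ i x, W x = 0 → jac W (ζ i) x = 0
  ηcd : ∀ j, ContDiff ℝ 1 (η j)
  η0 : ∀ j x, |η j x| ≤ K * (1 + ‖x‖)
  η1 : ∀ j x, ‖grad (η j) x‖ ≤ K * (1 + ‖x‖)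
  on : ∀ i j, ∫ x, ζ i x * ζ j x * rho x ∂κ = if i = j then 1 else 0
  orth : ∀ i j, ∫ x, ζ i x * η j x * rho x ∂κ = 0
  hnd : ∀ u : E → ℝ, AEStronglyMeasurable u κ → Integrable (fun x => u x ^ 2 * rho x) κ →
      (∀ ξ : E → ℝ, ContDiff ℝ (⊤ : ℕ∞) ξ → HasCompactSupport ξ →
        ∫ x, u x * jac W ξ x * rho x ∂κ = 0) →
      ∃ (x : Fin k → ℝ) (y : Fin l → ℝ), u =ᵐ[κ] fun p => ∑ i, x i * ζ i p + ∑ j, y j * η j p
  /-- second-order nondegeneracy -/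
  nd : ∀ a : EuclideanSpace ℝ (Fin k), (∀ i, Phi κ W (lc ζ a) (lc ζ a) (ζ i) = 0) → a = 0

/-- the coordinates `∫ W ζ_i ρ dμ` of a slice -/
noncomputable def co {k : ℕ} (W : E → ℝ) (ζ : Fin k → E → ℝ) (μ : Measure E) :
    EuclideanSpace ℝ (Fin k) := WithLp.toLp 2 fun i => ∫ x, W x * ζ i x * rho x ∂μ

/-- the size of the rotation coordinates -/
noncomputable def rsq {l : ℕ} (W : E → ℝ) (η : Fin l → E → ℝ) (μ : Measure E) : ℝ :=
  ∑ j, (∫ x, W x * η j x * rho x ∂μ) ^ 2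

end Vale.Agent.P218.H588
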