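import Vale.Agent.P218.H313.Sec

/-! Rotation of slices. -/

open MeasureTheory Set Filter Topology Metric
open scoped ENNReal NNReal RealInnerProductSpace CompactlySupported

namespace Vale.Agent.P218.H588

open Vale.Agent.P214 (IntegralVarifold proj divAlong IsTestField)
open Vale.Agent.P218.H313
open Vale.Agent.P218.H552 (MC)

set_option linter.unusedSectionVars false
set_option linter.unusedVariables false

variable {E : Type*} [NormedAddCommGroup E] [InnerProductSpace ℝ E] [FiniteDimensional ℝ E]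
  [MeasurableSpace E] [BorelSpace E]
variable {m : ℕ} {μ : Measure E} {T : E → Submodule ℝ E} {H : E → E}

/-- the rotated measure -/
noncomputable def rM (Q : E ≃ₗᵢ[ℝ] E) (μ : Measure E) : Measure E := μ.map Q

/-- the rotated planes -/
def rT (Q : E ≃ₗᵢ[ℝ] E) (T : E → Submodule ℝ E) (x : E) : Submodule ℝ E :=
  (T (Q.symm x)).map (Q.toLinearEquiv : E →ₗ[ℝ] E)

/-- the rotated mean curvature -/
def rH (Q : E ≃ₗᵢ[ℝ] E) (H : E → E) (x : E) : E := Q (H (Q.symm x))

lemma me (Q : E ≃ₗᵢ[ℝ] E) : MeasurableEmbedding Q :=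
  Q.toHomeomorph.measurableEmbedding

lemma int_rM (Q : E ≃ₗᵢ[ℝ] E) {F : Type*} [NormedAddCommGroup F] [NormedSpace ℝ F] (f : E → F) :
    ∫ x, f x ∂(rM Q μ) = ∫ x, f (Q x) ∂μ := (me Q).integral_map f

lemma integrable_rM (Q : E ≃ₗᵢ[ℝ] E) {F : Type*} [NormedAddCommGroup F] {f : E → F} :
    Integrable f (rM Q μ) ↔ Integrable (fun x => f (Q x)) μ := (me Q).integrable_map_iff

lemma aesm_rM (Q : E ≃ₗᵢ[ℝ] E) {F : Type*} [TopologicalSpace F] [TopologicalSpace.PseudoMetrizableSpace F]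
    {f : E → F} :
    AEStronglyMeasurable f (rM Q μ) ↔ AEStronglyMeasurable (fun x => f (Q x)) μ :=
  (me Q).aestronglyMeasurable_map_iff

lemma ae_rM (Q : E ≃ₗᵢ[ℝ] E) {p : E → Prop} :
    (∀ᵐ x ∂(rM Q μ), p x) ↔ ∀ᵐ x ∂μ, p (Q x) := (me Q).ae_map_iff

@[simp] lemma rT_apply (Q : E ≃ₗᵢ[ℝ] E) (x : E) :
    rT Q T (Q x) = (T x).map (Q.toLinearEquiv : E →ₗ[ℝ] E) := by
  unfold rT; rw [Q.symm_apply_apply]

@[simp] lemma rH_apply (Q : E ≃ₗᵢ[ℝ] E) (x : E) : rH Q H (Q x) = Q (H x) := by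
  unfold rH; rw [Q.symm_apply_apply]

lemma proj_map (Q : E ≃ₗᵢ[ℝ] E) (S : Submodule ℝ E) (y : E) :
    proj (S.map (Q.toLinearEquiv : E →ₗ[ℝ] E)) y = Q (proj S (Q.symm y)) :=
  Submodule.starProjection_map_apply Q S y

/-- `Q` as a continuous linear map -/
noncomputable abbrev cQ (Q : E ≃ₗᵢ[ℝ] E) : E →L[ℝ] E := (Q.toContinuousLinearEquiv : E →L[ℝ] E)

lemma proj_map' (Q : E ≃ₗᵢ[ℝ] E) (S : Submodule ℝ E) :
    proj (S.map (Q.toLinearEquiv : E →ₗ[ℝ] E)) = (cQ Q).comp ((proj S).comp (cQ Q.symm)) := by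
  ext1 y; exact proj_map Q S y

lemma rho_iso (Q : E ≃ₗᵢ[ℝ] E) (x : E) : rho (Q x) = rho x := by
  unfold rho; rw [Q.norm_map]

lemma vel_iso (Q : E ≃ₗᵢ[ℝ] E) (x : E) : vel (rT Q T) (rH Q H) (Q x) = Q (vel T H x) := by
  unfold vel
  rw [rT_apply, rH_apply, proj_map, Q.symm_apply_apply, map_add, map_smul, map_sub]

lemma ker_iso (Q : E ≃ₗᵢ[ℝ] E) (z : E) : H313.ker (Q z) = H313.ker z := by
  unfold H313.ker; rw [Q.norm_map]

lemma ker_iso' (Q : E ≃ₗᵢ[ℝ] E) (r : ℝ) (x y : E) :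
    H313.ker (r⁻¹ • (Q y - Q x)) = H313.ker (r⁻¹ • (y - x)) := by
  rw [← map_sub, ← map_smul, ker_iso]

/-- the divergence of a field in the rotated frame -/
lemma div_iso (Q : E ≃ₗᵢ[ℝ] E) {X : E → E} (hX : ContDiff ℝ 1 X) (x : E) (S : Submodule ℝ E) :
    divAlong (S.map (Q.toLinearEquiv : E →ₗ[ℝ] E)) X (Q x)
      = divAlong S (fun y => Q.symm (X (Q y))) x := by
  rw [divAlong_eq, divAlong_eq, proj_map']
  have h1 : HasFDerivAt X (fderiv ℝ X (Q x)) (Q x) :=
    (hX.differentiable (by norm_num) _).hasFDerivAt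
  have h2 : HasFDerivAt (fun y => Q y) (cQ Q) x := (cQ Q).hasFDerivAt
  have h3 : HasFDerivAt (fun y => Q.symm y) (cQ Q.symm) (X (Q x)) := (cQ Q.symm).hasFDerivAt
  have h4 : HasFDerivAt (fun y => Q.symm (X (Q y)))
      ((cQ Q.symm).comp ((fderiv ℝ X (Q x)).comp (cQ Q))) x := h3.comp x (h1.comp x h2)
  rw [h4.fderiv]
  rw [show ((cQ Q).comp ((proj S).comp (cQ Q.symm))).comp (fderiv ℝ X (Q x))
    = (cQ Q).comp (((proj S).comp (cQ Q.symm)).comp (fderiv ℝ X (Q x))) from rfl, tr_comm]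
  rfl

lemma MC_iso (Q : E ≃ₗᵢ[ℝ] E) (h : MC m μ T H) : MC m (rM Q μ) (rT Q T) (rH Q H) where
  fin := by
    have := h.fin
    refine ⟨fun K hK => ?_⟩
    rw [rM, (me Q).map_apply]
    have e : Q ⁻¹' K = Q.symm '' K := (Q.symm.toEquiv.image_eq_preimage_symm K).symm
    rw [e]
    exact (hK.image Q.symm.continuous).measure_lt_top
  Tmeas := by
    rw [aesm_rM]
    simp only [rT_apply, proj_map']
    have h1 := h.Tmeas
    have hc : Continuous fun L : E →L[ℝ] E => (cQ Q).comp (L.comp (cQ Q.symm)) := by fun_prop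
    exact hc.comp_aestronglyMeasurable h1
  dim := by
    rw [ae_rM]
    filter_upwards [h.dim] with x hx
    rw [rT_apply, LinearEquiv.finrank_map_eq, hx]
  meas := by
    rw [aesm_rM]
    simp only [rH_apply]
    exact Q.continuous.comp_aestronglyMeasurable h.meas
  locL2 := by
    intro K hK
    have e : Q ⁻¹' K = Q.symm '' K := (Q.symm.toEquiv.image_eq_preimage_symm K).symm
    have h1 := h.locL2 (Q ⁻¹' K) (by rw [e]; exact hK.image Q.symm.continuous)
    rw [rM, (me Q).integrableOn_map_iff]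
    refine h1.congr (Eventually.of_forall fun x => ?_)
    simp only [Function.comp, rH_apply, Q.norm_map]
  normal := by
    rw [ae_rM]
    filter_upwards [h.normal] with x hx
    rw [rT_apply, rH_apply, Submodule.mem_orthogonal]
    rintro _ ⟨v, hv, rfl⟩
    have : ⟪Q v, Q (H x)⟫ = 0 := by
      rw [Q.inner_map_map]; exact (Submodule.mem_orthogonal _ _).1 hx v hv
    exact this
  fv := by
    intro X hX hXc
    rw [int_rM, int_rM]
    simp only [rT_apply, rH_apply]
    have hY : ContDiff ℝ 1 (fun y => Q.symm (X (Q y))) :=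
      (cQ Q.symm).contDiff.comp (hX.comp (cQ Q).contDiff)
    have hYc : HasCompactSupport (fun y => Q.symm (X (Q y))) :=
      (hXc.comp_homeomorph Q.toHomeomorph).comp_left (g := Q.symm) (map_zero _)
    have h1 := h.fv _ hY hYc
    calc ∫ x, divAlong ((T x).map (Q.toLinearEquiv : E →ₗ[ℝ] E)) X (Q x) ∂μ
        = ∫ x, divAlong (T x) (fun y => Q.symm (X (Q y))) x ∂μ := by
          congr 1; ext x; exact div_iso Q hX x (T x)
      _ = - ∫ x, ⟪Q.symm (X (Q x)), H x⟫ ∂μ := h1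
      _ = _ := by
          congr 2; ext x
          rw [← Q.inner_map_map, Q.apply_symm_apply]

lemma GSlice_iso (Q : E ≃ₗᵢ[ℝ] E) (h : GSlice m μ T H) :
    GSlice m (rM Q μ) (rT Q T) (rH Q H) where
  mc := MC_iso Q h.mc
  dens := by
    rw [ae_rM]
    filter_upwards [h.dens] with x hx c hc
    filter_upwards [hx c hc] with r hr
    rw [int_rM]
    simp_rw [ker_iso']
    exact hr
  mom := by
    intro p
    rw [integrable_rM]
    simp_rw [Q.norm_map, rho_iso]
    exact h.mom p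
  vsq := by
    intro p
    rw [integrable_rM]
    simp_rw [vel_iso, Q.norm_map, rho_iso]
    exact h.vsq p

lemma DD_iso (Q : E ≃ₗᵢ[ℝ] E) (W : E → ℝ) (j : ℕ) :
    DD (rM Q μ) W j = DD μ (fun x => W (Q x)) j := by
  unfold DD
  rw [int_rM]
  simp_rw [Q.norm_map, rho_iso]

lemma dis_iso (Q : E ≃ₗᵢ[ℝ] E) : dis (rM Q μ) (rT Q T) (rH Q H) = dis μ T H := by
  unfold dis
  rw [int_rM]
  simp_rw [vel_iso, Q.norm_map, rho_iso]

lemma EE_iso (Q : E ≃ₗᵢ[ℝ] E) {ψ : E → ℝ} (hψ : ContDiff ℝ 1 ψ) :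
    EE (rM Q μ) (rT Q T) (rH Q H) ψ = EE μ T H (fun x => ψ (Q x)) := by
  unfold EE
  rw [int_rM]
  congr 1; ext x
  rw [vel_iso, rho_iso, grad_comp_isometry hψ]
  congr 1
  rw [← Q.inner_map_map (Q.symm (grad ψ (Q x))), Q.apply_symm_apply]

lemma nh_iso (Q : E ≃ₗᵢ[ℝ] E) (W : E → ℝ) (x : E) :
    nh (rM Q μ) W (Q x) = nh μ (fun x => W (Q x)) x := by
  unfold nh
  rw [DD_iso]

/-- mass of balls -/
lemma ball_bound {h : GSlice m μ T H} {C R : ℝ} (hC : ∫ x, rho x ∂μ ≤ C) :
    μ.real (closedBall (0 : E) R) ≤ Real.exp (R ^ 2 / 4) * C := by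
  have hi : Integrable (fun x => rho x) μ := by simpa using h.mom 0
  have := h.mc.fin
  have hfin : μ (closedBall (0 : E) R) < ⊤ := (isCompact_closedBall (0 : E) R).measure_lt_top
  have h1 : ∫ x in closedBall (0 : E) R, Real.exp (-(R ^ 2 / 4)) ∂μ ≤ ∫ x, rho x ∂μ := by
    refine le_trans ?_ (setIntegral_le_integral (s := closedBall (0 : E) R) hi
      (Eventually.of_forall fun x => (rho_pos x).le))
    refine setIntegral_mono_on ?_ hi.integrableOn measurableSet_closedBall fun x hx => ?_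
    · exact integrableOn_const hfin.ne
    · rw [mem_closedBall_zero_iff] at hx
      unfold rho
      refine Real.exp_le_exp.2 ?_
      have h2 : ‖x‖ ^ 2 ≤ R ^ 2 := pow_le_pow_left₀ (norm_nonneg x) hx 2
      linarith
  rw [setIntegral_const, smul_eq_mul] at h1
  have h2 := h1.trans hC
  rw [Real.exp_neg, ← div_eq_mul_inv, div_le_iff₀ (Real.exp_pos _)] at h2
  linarith

/-- rotating a convergent family by rotations tending to the identity -/
theorem Conv_iso {ι : Type*} {U : Ultrafilter ι} {N : ι → Measure E}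
    {T : ι → E → Submodule ℝ E} {H : ι → E → E} {κ : Measure E} (h : Conv U m N T H κ)
    {Q : ι → E ≃ₗᵢ[ℝ] E} {e : ι → ℝ} (he : Tendsto e U (𝓝 0))
    (hQ : ∀ᶠ i in (U : Filter ι), ∀ x, ‖Q i x - x‖ ≤ e i * ‖x‖) :
    Conv U m (fun i => rM (Q i) (N i)) (fun i => rT (Q i) (T i)) (fun i => rH (Q i) (H i)) κ where
  lf := h.lf
  sl := by
    filter_upwards [h.sl] with i hi using GSlice_iso (Q i) hi
  mom := by
    intro p
    obtain ⟨C, hC⟩ := h.mom p
    refine ⟨C, ?_⟩
    filter_upwards [hC] with i hi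
    rw [int_rM]
    simp_rw [(Q i).norm_map, rho_iso]
    exact hi
  ratio := by
    obtain ⟨C, hC⟩ := h.ratio
    refine ⟨C, ?_⟩
    filter_upwards [hC] with i hi
    intro x r hr hr1
    have e1 : (rM (Q i) (N i)).real (closedBall x r)
        = (N i).real (closedBall ((Q i).symm x) r) := by
      unfold Measure.real rM
      rw [(me (Q i)).map_apply]
      congr 2
      ext y
      simp only [mem_preimage, mem_closedBall, dist_eq_norm]
      rw [← (Q i).norm_map (y - (Q i).symm x), map_sub, (Q i).apply_symm_apply]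
    rw [e1]
    exact hi _ r hr hr1
  lim := by
    intro φ hφ hφc
    have h0 := h.lim φ hφ hφc
    obtain ⟨C, hC⟩ := h.mom 0
    obtain ⟨R, hR⟩ : ∃ R : ℝ, ∀ x, R < ‖x‖ → φ x = 0 := by
      obtain ⟨R, hR⟩ := hφc.isCompact.isBounded.subset_closedBall 0
      refine ⟨R, fun x hx => image_eq_zero_of_notMem_tsupport fun h => ?_⟩
      have := hR h
      rw [mem_closedBall_zero_iff] at this
      linarith
    have huc : UniformContinuous φ := hφc.uniformContinuous_of_continuous hφ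
    have hdiff : Tendsto (fun i => ∫ x, φ x ∂(rM (Q i) (N i)) - ∫ x, φ x ∂(N i)) U (𝓝 0) := by
      rw [Metric.tendsto_nhds]
      intro ε hε
      set C' := Real.exp (R ^ 2 / 4) * |C| + 1 with hC'
      have hC'0 : 0 < C' := by positivity
      obtain ⟨δ, hδ, hδ'⟩ := Metric.uniformContinuous_iff.1 huc (ε / C') (by positivity)
      have he1 : ∀ᶠ i in (U : Filter ι), |e i| * (|R| + 1) < δ := by
        have : Tendsto (fun i => |e i| * (|R| + 1)) U (𝓝 0) := by
          have := (he.abs).mul_const (|R| + 1)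
          simpa using this
        exact this.eventually_lt_const hδ
      filter_upwards [he1, hQ, h.sl, hC] with i h1 h2 h3 h4
      rw [int_rM, dist_zero_right, Real.norm_eq_abs]
      have := h3.mc.fin
      have i1 : Integrable φ (N i) := hφ.integrable_of_hasCompactSupport hφc
      have i2 : Integrable (fun x => φ (Q i x)) (N i) :=
        (hφ.comp (Q i).continuous).integrable_of_hasCompactSupport
          (hφc.comp_homeomorph (Q i).toHomeomorph)
      rw [← integral_sub i2 i1]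
      have hz : ∀ x, x ∉ closedBall (0 : E) R → φ (Q i x) - φ x = 0 := by
        intro x hx
        rw [mem_closedBall_zero_iff, not_le] at hx
        rw [hR x hx, hR (Q i x) (by rwa [(Q i).norm_map]), sub_zero]
      rw [← setIntegral_eq_integral_of_forall_compl_eq_zero hz]
      have hfin : (N i) (closedBall (0 : E) R) < ⊤ :=
        (isCompact_closedBall (0 : E) R).measure_lt_top
      have hb := norm_setIntegral_le_of_norm_le_const (μ := N i) (s := closedBall (0 : E) R)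
        (f := fun x => φ (Q i x) - φ x) (C := ε / C') hfin (fun x hx => by
          rw [mem_closedBall_zero_iff] at hx
          rw [← dist_eq_norm]
          refine (hδ' ?_).le
          rw [dist_eq_norm]
          refine (h2 x).trans_lt (lt_of_le_of_lt ?_ h1)
          have : ‖x‖ ≤ |R| + 1 := hx.trans ((le_abs_self R).trans (by linarith))
          exact mul_le_mul (le_abs_self _) this (norm_nonneg _) (abs_nonneg _))
      have hm : (N i).real (closedBall (0 : E) R) ≤ Real.exp (R ^ 2 / 4) * |C| := by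
        refine (ball_bound (h := h3) (C := C) (by simpa using h4)).trans ?_
        exact mul_le_mul_of_nonneg_left (le_abs_self _) (Real.exp_pos _).le
      rw [← Real.norm_eq_abs]
      refine hb.trans_lt ?_
      calc ε / C' * (N i).real (closedBall (0 : E) R) ≤ ε / C' * (Real.exp (R ^ 2 / 4) * |C|) := by
            gcongr
        _ < ε := by
            rw [div_mul_eq_mul_div, div_lt_iff₀ hC'0]
            have : Real.exp (R ^ 2 / 4) * |C| < C' := by rw [hC']; linarith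
            exact mul_lt_mul_of_pos_left this hε
    have := hdiff.add h0
    simpa using this

/-- a test function of polynomial growth hardly changes under a rotation close to `1` -/
lemma sq_diff_iso {ι : Type*} {U : Ultrafilter ι} {N : ι → Measure E}
    {T : ι → E → Submodule ℝ E} {H : ι → E → E} {κ : Measure E} (h : Conv U m N T H κ)
    {Q : ι → E ≃ₗᵢ[ℝ] E} {e : ι → ℝ} (he : Tendsto e U (𝓝 0))
    (hQ : ∀ᶠ i in (U : Filter ι), ∀ x, ‖Q i x - x‖ ≤ e i * ‖x‖) {f : E → ℝ} (hf : Continuous f)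
    (hfb : PB f) :
    Tendsto (fun i => ∫ x, (f (Q i x) - f x) ^ 2 * rho x ∂(N i)) U (𝓝 0) := by
  obtain ⟨C, p, hC, hb⟩ := hfb
  obtain ⟨M₀, hM₀⟩ := h.mom 0
  obtain ⟨M₁, hM₁⟩ := h.mom (2 * p + 1)
  rw [Metric.tendsto_nhds]
  intro ε hε
  -- the radius
  obtain ⟨R, hR0, hR⟩ : ∃ R : ℝ, 0 ≤ R ∧ 4 * C ^ 2 * |M₁| / (1 + R) ≤ ε / 4 := by
    refine ⟨4 * C ^ 2 * |M₁| / (ε / 4), by positivity, ?_⟩
    rw [div_le_iff₀ (by positivity)]
    have : ε / 4 * (1 + 4 * C ^ 2 * |M₁| / (ε / 4)) = ε / 4 + 4 * C ^ 2 * |M₁| := by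
      field_simp
    rw [this]; linarith
  set η := √(ε / (4 * (|M₀| + 1))) with hη
  have hη0 : 0 < η := Real.sqrt_pos.2 (by positivity)
  have hη2 : η ^ 2 * |M₀| ≤ ε / 4 := by
    rw [hη, Real.sq_sqrt (by positivity), div_mul_eq_mul_div, div_le_div_iff₀ (by positivity)
      (by norm_num)]
    nlinarith [abs_nonneg M₀]
  have huc := (isCompact_closedBall (0 : E) R).uniformContinuousOn_of_continuous hf.continuousOn
  obtain ⟨δ, hδ, hδ'⟩ := Metric.uniformContinuousOn_iff.1 huc η hη0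
  have he1 : ∀ᶠ i in (U : Filter ι), |e i| * R < δ := by
    have : Tendsto (fun i => |e i| * R) U (𝓝 0) := by
      have := (he.abs).mul_const R
      simpa using this
    exact this.eventually_lt_const hδ
  filter_upwards [he1, hQ, h.sl, hM₀, hM₁] with i h1 h2 h3 h4 h5
  have hnn : 0 ≤ ∫ x, (f (Q i x) - f x) ^ 2 * rho x ∂(N i) :=
    integral_nonneg fun x => mul_nonneg (sq_nonneg _) (rho_pos x).le
  rw [dist_zero_right, Real.norm_of_nonneg hnn]
  have j0 := h3.mom 0
  have j1 := h3.mom (2 * p + 1)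
  have hpt : ∀ x, (f (Q i x) - f x) ^ 2 * rho x ≤ η ^ 2 * ((1 + ‖x‖) ^ 0 * rho x)
      + 4 * C ^ 2 / (1 + R) * ((1 + ‖x‖) ^ (2 * p + 1) * rho x) := by
    intro x
    have hr := rho_pos x
    have hx0 := norm_nonneg x
    by_cases hx : ‖x‖ ≤ R
    · have g1 : dist (f (Q i x)) (f x) < η := hδ' (Q i x) (by
        rw [mem_closedBall_zero_iff, (Q i).norm_map]; exact hx) x
        (by rw [mem_closedBall_zero_iff]; exact hx) (by
          rw [dist_eq_norm]
          refine (h2 x).trans_lt (lt_of_le_of_lt ?_ h1)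
          exact mul_le_mul (le_abs_self _) hx hx0 (abs_nonneg _))
      rw [Real.dist_eq] at g1
      have g2 : (f (Q i x) - f x) ^ 2 ≤ η ^ 2 := by
        rw [← sq_abs]; exact pow_le_pow_left₀ (abs_nonneg _) g1.le 2
      have g3 : 0 ≤ 4 * C ^ 2 / (1 + R) * ((1 + ‖x‖) ^ (2 * p + 1) * rho x) := by positivity
      rw [pow_zero, one_mul]
      have := mul_le_mul_of_nonneg_right g2 hr.le
      linarith
    · push Not at hx
      have g1 : |f (Q i x) - f x| ≤ 2 * (C * (1 + ‖x‖) ^ p) := by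
        have a1 := hb (Q i x)
        have a2 := hb x
        rw [(Q i).norm_map, Real.norm_eq_abs] at a1
        rw [Real.norm_eq_abs] at a2
        exact (abs_sub _ _).trans (by linarith)
      have g2 : (f (Q i x) - f x) ^ 2 ≤ 4 * C ^ 2 * (1 + ‖x‖) ^ (2 * p) := by
        rw [← sq_abs]
        calc |f (Q i x) - f x| ^ 2 ≤ (2 * (C * (1 + ‖x‖) ^ p)) ^ 2 :=
              pow_le_pow_left₀ (abs_nonneg _) g1 2
          _ = _ := by rw [mul_pow, mul_pow, ← pow_mul, mul_comm p 2]; ring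
      have g3 : (1 + ‖x‖) ^ (2 * p) ≤ (1 + ‖x‖) ^ (2 * p + 1) / (1 + R) := by
        rw [le_div_iff₀ (by positivity), pow_succ]
        have : 1 + R ≤ 1 + ‖x‖ := by linarith
        gcongr
      have g4 : (f (Q i x) - f x) ^ 2 ≤ 4 * C ^ 2 * ((1 + ‖x‖) ^ (2 * p + 1) / (1 + R)) :=
        g2.trans (by gcongr)
      have g5 : 0 ≤ η ^ 2 * ((1 + ‖x‖) ^ 0 * rho x) := by positivity
      have g6 := mul_le_mul_of_nonneg_right g4 hr.le
      have g7 : 4 * C ^ 2 * ((1 + ‖x‖) ^ (2 * p + 1) / (1 + R)) * rho x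
          = 4 * C ^ 2 / (1 + R) * ((1 + ‖x‖) ^ (2 * p + 1) * rho x) := by ring
      linarith
  have hint := integral_mono_of_nonneg (Eventually.of_forall fun x =>
    mul_nonneg (sq_nonneg (f (Q i x) - f x)) (rho_pos x).le)
    ((j0.const_mul (η ^ 2)).add (j1.const_mul (4 * C ^ 2 / (1 + R))))
    (Eventually.of_forall hpt)
  have e1 := integral_comb2 j0 j1 (η ^ 2) (4 * C ^ 2 / (1 + R))
  have hint2 : ∫ x, (f (Q i x) - f x) ^ 2 * rho x ∂(N i)
      ≤ η ^ 2 * ∫ x, (1 + ‖x‖) ^ 0 * rho x ∂(N i)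
        + 4 * C ^ 2 / (1 + R) * ∫ x, (1 + ‖x‖) ^ (2 * p + 1) * rho x ∂(N i) := by
    rw [← e1]; exact hint
  have e2 : η ^ 2 * ∫ x, (1 + ‖x‖) ^ 0 * rho x ∂(N i) ≤ η ^ 2 * |M₀| :=
    mul_le_mul_of_nonneg_left (h4.trans (le_abs_self _)) (by positivity)
  have e3 : 4 * C ^ 2 / (1 + R) * ∫ x, (1 + ‖x‖) ^ (2 * p + 1) * rho x ∂(N i)
      ≤ 4 * C ^ 2 / (1 + R) * |M₁| :=
    mul_le_mul_of_nonneg_left (h5.trans (le_abs_self _)) (by positivity)
  have e4 : 4 * C ^ 2 / (1 + R) * |M₁| = 4 * C ^ 2 * |M₁| / (1 + R) := by ring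
  linarith

/-- the weak limit of the normalised heights in the rotated frames -/
lemma weak_iso {ι : Type*} {U : Ultrafilter ι} {N : ι → Measure E}
    {T : ι → E → Submodule ℝ E} {H : ι → E → E} {κ : Measure E} (h : Conv U m N T H κ)
    {Q : ι → E ≃ₗᵢ[ℝ] E} {e : ι → ℝ} (he : Tendsto e U (𝓝 0))
    (hQ : ∀ᶠ i in (U : Filter ι), ∀ x, ‖Q i x - x‖ ≤ e i * ‖x‖) {W : E → ℝ} {c K : ℝ}
    (hW : TubeD W c K) {v : E → ℝ}
    (hpos : ∀ᶠ i in (U : Filter ι), 0 < DD (N i) (fun x => W (Q i x)) 0)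
    (hlim : ∀ f : E → ℝ, Continuous f → PB f →
      Tendsto (fun i => ∫ x, nh (N i) (fun x => W (Q i x)) x * f x * rho x ∂(N i)) U
        (𝓝 (∫ x, v x * f x * rho x ∂κ))) {f : E → ℝ} (hf : Continuous f) (hfb : PB f) :
    Tendsto (fun i => ∫ x, nh (rM (Q i) (N i)) W x * f x * rho x ∂(rM (Q i) (N i))) U
        (𝓝 (∫ x, v x * f x * rho x ∂κ)) := by
  have h1 := sq_diff_iso h he hQ hf hfb
  have h2 : Tendsto (fun i => √(∫ x, (f (Q i x) - f x) ^ 2 * rho x ∂(N i))) U (𝓝 0) := by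
    have := h1.sqrt; rwa [Real.sqrt_zero] at this
  have h3 : Tendsto (fun i => ∫ x, nh (rM (Q i) (N i)) W x * f x * rho x ∂(rM (Q i) (N i))
      - ∫ x, nh (N i) (fun x => W (Q i x)) x * f x * rho x ∂(N i)) U (𝓝 0) := by
    refine squeeze_zero_norm' ?_ h2
    filter_upwards [h.sl, hpos] with i hs hp
    have hWi : TubeD (fun x => W (Q i x)) c K := hW.comp (Q i)
    rw [int_rM]
    simp_rw [nh_iso, rho_iso]
    have hfc : Continuous (fun x => f (Q i x)) := hf.comp (Q i).continuous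
    have hfpb : PB (fun x => f (Q i x)) := by
      obtain ⟨C, p, hC, hb⟩ := hfb
      exact ⟨C, p, hC, fun x => by have := hb (Q i x); rwa [(Q i).norm_map] at this⟩
    have hn := nh_cont (μ := N i) hWi
    have hnb := nh_pb (μ := N i) hWi
    have i1 : Integrable (fun x => nh (N i) (fun x => W (Q i x)) x * f (Q i x) * rho x) (N i) :=
      hs.integrable_PB (hn.mul hfc).aestronglyMeasurable (hnb.mul hfpb)
    have i2 : Integrable (fun x => nh (N i) (fun x => W (Q i x)) x * f x * rho x) (N i) :=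
      hs.integrable_PB (hn.mul hf).aestronglyMeasurable (hnb.mul hfb)
    rw [← integral_sub i1 i2]
    have e1 : ∀ x, nh (N i) (fun x => W (Q i x)) x * f (Q i x) * rho x
        - nh (N i) (fun x => W (Q i x)) x * f x * rho x
        = nh (N i) (fun x => W (Q i x)) x * (f (Q i x) - f x) * rho x := fun x => by ring
    simp_rw [e1]
    have j1 : Integrable (fun x => nh (N i) (fun x => W (Q i x)) x ^ 2 * rho x) (N i) :=
      hs.integrable_PB (hn.pow 2).aestronglyMeasurable (hnb.pow 2)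
    have j2 : Integrable (fun x => (f (Q i x) - f x) ^ 2 * rho x) (N i) :=
      hs.integrable_PB ((hfc.sub hf).pow 2).aestronglyMeasurable ((hfpb.sub hfb).pow 2)
    have j3 : Integrable (fun x => nh (N i) (fun x => W (Q i x)) x * (f (Q i x) - f x) * rho x)
        (N i) := hs.integrable_PB (hn.mul (hfc.sub hf)).aestronglyMeasurable
          (hnb.mul (hfpb.sub hfb))
    have cs := abs_integral_mul_le (fun x => (rho_pos x).le) j1 j2 j3
    rw [nh_norm hp, Real.sqrt_one, one_mul] at cs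
    rw [Real.norm_eq_abs]
    exact cs
  have := h3.add (hlim f hf hfb)
  simpa using this

end Vale.Agent.P218.H588
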