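import Vale.Agent.P218.H588.Q
import Vale.Agent.P218.H313.Sec

/-! Second order: static estimates for slices near the shrinker, from the expansion of the rate
along blow-up sequences. -/

open MeasureTheory Set Filter Topology Metric
open scoped ENNReal NNReal RealInnerProductSpace CompactlySupported

namespace Vale.Agent.P218.H588

open Vale.Agent.P214 (IntegralVarifold proj divAlong IsTestField)
open Vale.Agent.P218.H313

set_option linter.unusedSectionVars false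
set_option linter.unusedVariables false

variable {E : Type*} [NormedAddCommGroup E] [InnerProductSpace ℝ E] [FiniteDimensional ℝ E]
  [MeasurableSpace E] [BorelSpace E]
variable {m : ℕ} {κ : Measure E} {W : E → ℝ} {c K : ℝ} {q k l : ℕ} {ζ : Fin k → E → ℝ}
  {η : Fin l → E → ℝ} {CM : ℕ → ℝ} {CR : ℝ}

/-! ### the filter of slices near `κ` -/

lemma nearS_mem : ∀ᶠ t in nearS m κ CM CR, GSlice m t.μ t.T t.H ∧
    (∀ p, ∫ x, (1 + ‖x‖) ^ p * rho x ∂t.μ ≤ CM p) ∧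
      ∀ (x : E) (r : ℝ), 0 < r → r ≤ 1 → t.μ.real (closedBall x r) ≤ CR * r ^ m := by
  have : nearS m κ CM CR ≤ 𝓟 {t : Tri E | GSlice m t.μ t.T t.H ∧
    (∀ p, ∫ x, (1 + ‖x‖) ^ p * rho x ∂t.μ ≤ CM p) ∧
      ∀ (x : E) (r : ℝ), 0 < r → r ≤ 1 → t.μ.real (closedBall x r) ≤ CR * r ^ m} := inf_le_left
  exact this (mem_principal_self _)

lemma nearS_conv [IsLocallyFiniteMeasure κ] {U : Ultrafilter (Tri E)}
    (hU : (U : Filter (Tri E)) ≤ nearS m κ CM CR) : Conv U m (·.μ) (·.T) (·.H) κ where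
  lf := inferInstance
  sl := by filter_upwards [hU nearS_mem] with t ht using ht.1
  mom p := ⟨CM p, by filter_upwards [hU nearS_mem] with t ht using ht.2.1 p⟩
  ratio := ⟨CR, by filter_upwards [hU nearS_mem] with t ht using ht.2.2⟩
  lim φ hc hs := by
    have : nearS m κ CM CR ≤ comap (fun t : Tri E => ∫ x, φ x ∂t.μ) (𝓝 (∫ x, φ x ∂κ)) :=
      inf_le_right.trans (iInf_le _ (⟨⟨φ, hc⟩, hs⟩ : C_c(E, ℝ)))
    exact (tendsto_iff_comap.2 this).mono_left hU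

/-- extraction of an ultrafilter -/
lemma exists_ultra {α : Type*} {f : Filter α} {S : ℕ → Set α} (hS : Antitone S)
    (hfr : ∀ n, ∃ᶠ x in f, x ∈ S n) : ∃ U : Ultrafilter α, (U : Filter α) ≤ f ∧
      ∀ n, ∀ᶠ x in (U : Filter α), x ∈ S n := by
  have hne : (⨅ n : ℕ, f ⊓ 𝓟 (S n)).NeBot := by
    refine iInf_neBot_of_directed' ?_ fun n => frequently_mem_iff_neBot.1 (hfr n)
    exact directed_of_isDirected_le fun i j hij => inf_le_inf_left _ (principal_mono.2 (hS hij))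
  refine ⟨Ultrafilter.of (⨅ n : ℕ, f ⊓ 𝓟 (S n)),
    (Ultrafilter.of_le _).trans ((iInf_le _ 0).trans inf_le_left), fun n => ?_⟩
  have : (Ultrafilter.of (⨅ n : ℕ, f ⊓ 𝓟 (S n)) : Filter α) ≤ 𝓟 (S n) :=
    (Ultrafilter.of_le _).trans ((iInf_le _ n).trans inf_le_right)
  exact this (mem_principal_self _)

/-- extraction of a contradictory ultrafilter from the failure of an estimate with large
constants -/
lemma exists_ultra_of_fail {α : Type*} {f : Filter α} {X Y : α → ℝ} (hY : ∀ᶠ t in f, 0 ≤ Y t)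
    {P : α → ℝ → ℝ → Prop} (hP : ∀ t x y y', P t x y' → y ≤ y' → P t x y)
    (hcon : ∀ C : ℝ, 0 ≤ C → ∃ᶠ t in f, P t (X t) (C * Y t)) :
    ∃ U : Ultrafilter α, (U : Filter α) ≤ f ∧ ∀ n : ℕ, ∀ᶠ t in (U : Filter α),
      P t (X t) ((n : ℝ) * Y t) := by
  obtain ⟨U, hU, hS⟩ := exists_ultra (f := f)
    (S := fun n => {t | 0 ≤ Y t ∧ P t (X t) ((n : ℝ) * Y t)}) (fun i j hij t ht => by
      refine ⟨ht.1, hP _ _ _ _ ht.2 ?_⟩
      exact mul_le_mul_of_nonneg_right (by exact_mod_cast hij) ht.1)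
    (fun n => ((hcon n n.cast_nonneg).and_eventually hY).mono fun t ht => ⟨ht.2, ht.1⟩)
  exact ⟨U, hU, fun n => (hS n).mono fun t ht => ht.2⟩

/-! ### interpolation of the weights -/

lemma wt_interp {δ : ℝ} (hδ : 0 < δ) (J : ℕ) (x : E) :
    wt J x ≤ δ * wt (J + 1) x + (δ⁻¹) ^ J := by
  have e : wt (J + 1) x = wt J x * (1 + ‖x‖ ^ 2) := by unfold wt; rw [pow_succ]
  have hw := wt_pos J x
  by_cases h : δ⁻¹ ≤ 1 + ‖x‖ ^ 2
  · have h1 : 1 ≤ δ * (1 + ‖x‖ ^ 2) := by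
      rwa [inv_le_iff_one_le_mul₀ hδ, mul_comm] at h
    have h2 : wt J x ≤ wt J x * (δ * (1 + ‖x‖ ^ 2)) := le_mul_of_one_le_right hw.le h1
    have h3 : 0 ≤ (δ⁻¹) ^ J := by positivity
    rw [e]; linarith
  · push Not at h
    have h1 : wt J x ≤ (δ⁻¹) ^ J := by
      unfold wt
      exact pow_le_pow_left₀ (by positivity) h.le J
    have h2 : 0 ≤ δ * wt (J + 1) x := by have := wt_pos (J + 1) x; positivity
    linarith

section interp

variable {μ : Measure E} {T : E → Submodule ℝ E} {H : E → E}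

lemma DD_interp (hS : GSlice m μ T H) (hW : TubeD W c K) {δ : ℝ} (hδ : 0 < δ) (J : ℕ) :
    DD μ W J ≤ δ * DD μ W (J + 1) + (δ⁻¹) ^ J * DD μ W 0 := by
  have e := integral_comb2 (hS.int_DD hW (J + 1)) (hS.int_DD hW 0) δ ((δ⁻¹) ^ J)
  have e1 : δ * DD μ W (J + 1) + (δ⁻¹) ^ J * DD μ W 0
      = ∫ x, (δ * (W x ^ 2 * wt (J + 1) x * rho x)
        + (δ⁻¹) ^ J * (W x ^ 2 * wt 0 x * rho x)) ∂μ := by rw [e]; rfl
  rw [e1]
  refine integral_mono (hS.int_DD hW J) (((hS.int_DD hW (J + 1)).const_mul _).add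
    ((hS.int_DD hW 0).const_mul _)) fun x => ?_
  change W x ^ 2 * wt J x * rho x ≤ _
  have h1 := wt_interp hδ J x
  have h2 : 0 ≤ W x ^ 2 * rho x := mul_nonneg (sq_nonneg _) (rho_pos x).le
  have h3 := mul_le_mul_of_nonneg_left h1 h2
  have e0 : wt 0 x = 1 := by simp [wt]
  simp only [e0]
  linarith

lemma TG_interp (hS : GSlice m μ T H) (hW : TubeD W c K) {δ : ℝ} (hδ : 0 < δ) (J : ℕ) :
    TG μ T W J ≤ δ * TG μ T W (J + 1) + (δ⁻¹) ^ J * TG μ T W 0 := by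
  have e := integral_comb2 (hS.int_TG hW (J + 1)) (hS.int_TG hW 0) δ ((δ⁻¹) ^ J)
  have e1 : δ * TG μ T W (J + 1) + (δ⁻¹) ^ J * TG μ T W 0
      = ∫ x, (δ * (wt (J + 1) x * ‖proj (T x) (grad W x)‖ ^ 2 * rho x)
        + (δ⁻¹) ^ J * (wt 0 x * ‖proj (T x) (grad W x)‖ ^ 2 * rho x)) ∂μ := by rw [e]; rfl
  rw [e1]
  refine integral_mono (hS.int_TG hW J) (((hS.int_TG hW (J + 1)).const_mul _).add
    ((hS.int_TG hW 0).const_mul _)) fun x => ?_
  have h1 := wt_interp hδ J x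
  have h2 : 0 ≤ ‖proj (T x) (grad W x)‖ ^ 2 * rho x := mul_nonneg (sq_nonneg _) (rho_pos x).le
  have h3 := mul_le_mul_of_nonneg_left h1 h2
  have e0 : wt 0 x = 1 := by simp [wt]
  simp only [e0]
  linarith

lemma SOD.pbζ (hD : SOD m κ W c K q ζ η) (i : Fin k) : PB (ζ i) :=
  PB.of_le (C := K) (p := q) fun x => by rw [Real.norm_eq_abs]; exact hD.b0 i x

lemma SOD.contζ (hD : SOD m κ W c K q ζ η) (i : Fin k) : Continuous (ζ i) := (hD.cd i).continuous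

lemma SOD.pgζ (hD : SOD m κ W c K q ζ η) (i : Fin k) : PG (ζ i) where
  cd := (hD.cd i).of_le (by norm_num)
  b0 := hD.pbζ i
  b1 := PB.of_le (C := K) (p := q) fun x => by rw [← norm_grad]; exact hD.b1 i x

lemma SOD.pbη (hD : SOD m κ W c K q ζ η) (j : Fin l) : PB (η j) :=
  PB.of_le (C := K) (p := 1) fun x => by rw [Real.norm_eq_abs, pow_one]; exact hD.η0 j x

lemma SOD.contη (hD : SOD m κ W c K q ζ η) (j : Fin l) : Continuous (η j) :=
  (hD.ηcd j).continuous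

/-- Cauchy–Schwarz for a coordinate -/
lemma abs_coord_le (hS : GSlice m μ T H) (hW : TubeD W c K) {f : E → ℝ} (hf : Continuous f)
    {C : ℝ} {p : ℕ} (hC : 0 ≤ C) (hb : ∀ x, |f x| ≤ C * (1 + ‖x‖) ^ p) {M : ℝ}
    (hM : ∫ x, (1 + ‖x‖) ^ (2 * p) * rho x ∂μ ≤ M) :
    |∫ x, W x * f x * rho x ∂μ| ≤ C * √M * √(DD μ W 0) := by
  have hfb : PB f := PB.of_le (C := C) (p := p) fun x => by rw [Real.norm_eq_abs]; exact hb x
  have j1 : Integrable (fun x => W x ^ 2 * rho x) μ :=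
    hS.integrable_PB (hW.cont.pow 2).aestronglyMeasurable (hW.pg.b0.pow 2)
  have j2 : Integrable (fun x => f x ^ 2 * rho x) μ :=
    hS.integrable_PB (hf.pow 2).aestronglyMeasurable (hfb.pow 2)
  have j3 : Integrable (fun x => W x * f x * rho x) μ :=
    hS.integrable_PB (hW.cont.mul hf).aestronglyMeasurable (hW.pg.b0.mul hfb)
  have cs := abs_integral_mul_le (fun x => (rho_pos x).le) j1 j2 j3
  have e1 : ∫ x, W x ^ 2 * rho x ∂μ = DD μ W 0 := (DD_zero_eq μ W).symm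
  have e2 : ∫ x, f x ^ 2 * rho x ∂μ ≤ C ^ 2 * M := by
    have h1 : ∫ x, f x ^ 2 * rho x ∂μ ≤ ∫ x, C ^ 2 * ((1 + ‖x‖) ^ (2 * p) * rho x) ∂μ := by
      refine integral_mono j2 ((hS.mom (2 * p)).const_mul _) fun x => ?_
      have h2 : f x ^ 2 ≤ C ^ 2 * (1 + ‖x‖) ^ (2 * p) := by
        rw [← sq_abs]
        calc |f x| ^ 2 ≤ (C * (1 + ‖x‖) ^ p) ^ 2 := pow_le_pow_left₀ (abs_nonneg _) (hb x) 2
          _ = _ := by rw [mul_pow, ← pow_mul, mul_comm p 2]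
      have := mul_le_mul_of_nonneg_right h2 (rho_pos x).le
      simp only
      linarith
    rw [integral_const_mul] at h1
    exact h1.trans (mul_le_mul_of_nonneg_left hM (sq_nonneg _))
  rw [e1] at cs
  have hM0 : 0 ≤ M := (integral_nonneg fun x => by
    have := rho_pos x; positivity).trans hM
  have e3 : √(∫ x, f x ^ 2 * rho x ∂μ) ≤ C * √M := by
    refine (Real.sqrt_le_sqrt e2).trans (le_of_eq ?_)
    rw [Real.sqrt_mul (sq_nonneg C), Real.sqrt_sq hC]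
  calc |∫ x, W x * f x * rho x ∂μ| ≤ √(DD μ W 0) * √(∫ x, f x ^ 2 * rho x ∂μ) := cs
    _ ≤ √(DD μ W 0) * (C * √M) := mul_le_mul_of_nonneg_left e3 (Real.sqrt_nonneg _)
    _ = _ := by ring

/-- Cauchy–Schwarz for the rate -/
lemma abs_EE_le (hS : GSlice m μ T H) {ψ : E → ℝ} (hψ : PG ψ) {C : ℝ} {p : ℕ} (hC : 0 ≤ C)
    (hb : ∀ x, ‖grad ψ x‖ ≤ C * (1 + ‖x‖) ^ p) {M : ℝ}
    (hM : ∫ x, (1 + ‖x‖) ^ (2 * p) * rho x ∂μ ≤ M) :
    |EE μ T H ψ| ≤ C * √M * √(dis μ T H) := by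
  have hgc := (continuous_grad hψ.cd)
  have hgb : PB (grad ψ) := PB.of_le (C := C) (p := p) hb
  have hvm := hS.vel_meas
  have j1 : Integrable (fun x => ‖grad ψ x‖ ^ 2 * rho x) μ :=
    hS.integrable_PB (hgc.norm.pow 2).aestronglyMeasurable (hgb.norm.pow 2)
  have j2 := hS.int_vel_sq
  have j3 : Integrable (fun x => ‖grad ψ x‖ * ‖vel T H x‖ * rho x) μ := by
    refine ((j1.add j2)).mono' ?_ (Eventually.of_forall fun x => ?_)
    · exact ((hgc.norm.aestronglyMeasurable.mul hvm.norm).mul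
        continuous_rho.aestronglyMeasurable)
    · have h1 := rho_pos x
      rw [Real.norm_of_nonneg (by positivity)]
      have h2 : ‖grad ψ x‖ * ‖vel T H x‖ ≤ ‖grad ψ x‖ ^ 2 + ‖vel T H x‖ ^ 2 := by
        nlinarith [sq_nonneg (‖grad ψ x‖ - ‖vel T H x‖), norm_nonneg (grad ψ x),
          norm_nonneg (vel T H x)]
      have := mul_le_mul_of_nonneg_right h2 h1.le
      simp only [Pi.add_apply]
      linarith
  have cs := abs_integral_mul_le (fun x => (rho_pos x).le) j1 j2 j3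
  have e2 : ∫ x, ‖grad ψ x‖ ^ 2 * rho x ∂μ ≤ C ^ 2 * M := by
    have h1 : ∫ x, ‖grad ψ x‖ ^ 2 * rho x ∂μ ≤ ∫ x, C ^ 2 * ((1 + ‖x‖) ^ (2 * p) * rho x) ∂μ := by
      refine integral_mono j1 ((hS.mom (2 * p)).const_mul _) fun x => ?_
      have h2 : ‖grad ψ x‖ ^ 2 ≤ C ^ 2 * (1 + ‖x‖) ^ (2 * p) := by
        calc ‖grad ψ x‖ ^ 2 ≤ (C * (1 + ‖x‖) ^ p) ^ 2 :=
              pow_le_pow_left₀ (norm_nonneg _) (hb x) 2
          _ = _ := by rw [mul_pow, ← pow_mul, mul_comm p 2]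
      have := mul_le_mul_of_nonneg_right h2 (rho_pos x).le
      simp only
      linarith
    rw [integral_const_mul] at h1
    exact h1.trans (mul_le_mul_of_nonneg_left hM (sq_nonneg _))
  have e3 : √(∫ x, ‖grad ψ x‖ ^ 2 * rho x ∂μ) ≤ C * √M := by
    refine (Real.sqrt_le_sqrt e2).trans (le_of_eq ?_)
    rw [Real.sqrt_mul (sq_nonneg C), Real.sqrt_sq hC]
  have e4 : |EE μ T H ψ| ≤ |∫ x, ‖grad ψ x‖ * ‖vel T H x‖ * rho x ∂μ| := by
    refine le_trans ?_ (le_abs_self _)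
    unfold EE
    rw [← Real.norm_eq_abs]
    refine norm_integral_le_of_norm_le j3 (Eventually.of_forall fun x => ?_)
    rw [norm_mul, Real.norm_of_nonneg (rho_pos x).le, Real.norm_eq_abs]
    exact mul_le_mul_of_nonneg_right (abs_real_inner_le_norm _ _) (rho_pos x).le
  calc |EE μ T H ψ| ≤ √(∫ x, ‖grad ψ x‖ ^ 2 * rho x ∂μ) * √(dis μ T H) := e4.trans cs
    _ ≤ _ := mul_le_mul_of_nonneg_right e3 (Real.sqrt_nonneg _)

end interp

end Vale.Agent.P218.H588
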