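import Vale.Agent.P218.H588.Stat

/-! Second order: the static estimates L1, L2, L3. -/

open MeasureTheory Set Filter Topology Metric
open scoped ENNReal NNReal RealInnerProductSpace CompactlySupported

namespace Vale.Agent.P218.H588

open Vale.Agent.P214 (IntegralVarifold proj divAlong IsTestField)
open Vale.Agent.P218.H313

set_option linter.unusedSectionVars false
set_option linter.unusedVariables false

variable {E : Type*} [NormedAddCommGroup E] [InnerProductSpace ℝ E] [FiniteDimensional ℝ E]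
  [MeasurableSpace E] [BorelSpace E]
variable {m : ℕ} {κ : Measure E} {W : E → ℝ} {c K : ℝ} {q k l : ℕ} {ζ : Fin k → E → ℝ}
  {η : Fin l → E → ℝ} {CM : ℕ → ℝ} {CR : ℝ}

/-- what is used of the expansion of the rate -/
structure Inp (m : ℕ) (κ : Measure E) (W : E → ℝ) {k l : ℕ} (ζ : Fin k → E → ℝ)
    (η : Fin l → E → ℝ) (C₀ : ℝ) (J₀ : ℕ) (B : Fin k → Fin k → Fin k → ℝ) : Prop where
  nn : 0 ≤ C₀
  quad : ∀ (a : EuclideanSpace ℝ (Fin k)) (i : Fin k),
    Phi κ W (lc ζ a) (lc ζ a) (ζ i) = ∑ p, ∑ r, a p * a r * B p r i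
  crude : ∀ (j : Fin k) (μ : Measure E) (T : E → Submodule ℝ E) (H : E → E), GSlice m μ T H →
    |EE μ T H (fun y => W y * ζ j y)| ≤ C₀ * (DD μ W J₀ + TG μ T W J₀ + dis μ T H)
  fine : ∀ U : Ultrafilter (Tri E), Conv U m (·.μ) (·.T) (·.H) κ →
    (∀ᶠ t in (U : Filter (Tri E)), 0 < DD t.μ W 0) →
    Tendsto (fun t : Tri E => DD t.μ W 0) U (𝓝 0) →
    Tendsto (fun t : Tri E => dis t.μ t.T t.H / DD t.μ W 0) U (𝓝 0) →
    (∃ M, ∀ᶠ t in (U : Filter (Tri E)), DD t.μ W J₀ + TG t.μ t.T W J₀ ≤ M * DD t.μ W 0) →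
    ∀ a : EuclideanSpace ℝ (Fin k), (∀ f : E → ℝ, Continuous f → PB f →
      Tendsto (fun t : Tri E => ∫ x, nh t.μ W x * f x * rho x ∂t.μ) U
        (𝓝 (∫ x, f x * lc ζ a x * rho x ∂κ))) →
    ∀ j, Tendsto (fun t : Tri E => EE t.μ t.T t.H (fun y => W y * ζ j y) / DD t.μ W 0) U
      (𝓝 (Phi κ W (lc ζ a) (lc ζ a) (ζ j)))
  lim : ∀ U : Ultrafilter (Tri E), Conv U m (·.μ) (·.T) (·.H) κ →
    (∀ᶠ t in (U : Filter (Tri E)), 0 < DD t.μ W 0) →
    Tendsto (fun t : Tri E => DD t.μ W 0) U (𝓝 0) →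
    Tendsto (fun t : Tri E => dis t.μ t.T t.H / DD t.μ W 0) U (𝓝 0) →
    ∃ (x : Fin k → ℝ) (y : Fin l → ℝ), ∀ f : E → ℝ, Continuous f → PB f →
      Tendsto (fun t : Tri E => ∫ x, nh t.μ W x * f x * rho x ∂t.μ) U
        (𝓝 (∫ p, f p * (∑ i, x i * ζ i p + ∑ j, y j * η j p) * rho p ∂κ))

lemma wt_mono {i j : ℕ} (h : i ≤ j) (x : E) : wt i x ≤ wt j x := by
  unfold wt
  exact pow_le_pow_right₀ (by nlinarith [sq_nonneg ‖x‖]) h

section mono

variable {μ : Measure E} {T : E → Submodule ℝ E} {H : E → E}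

lemma DD_mono (hS : GSlice m μ T H) (hW : TubeD W c K) {i j : ℕ} (h : i ≤ j) :
    DD μ W i ≤ DD μ W j := by
  refine integral_mono (hS.int_DD hW i) (hS.int_DD hW j) fun x => ?_
  change W x ^ 2 * wt i x * rho x ≤ W x ^ 2 * wt j x * rho x
  have h1 := wt_mono h x
  have h2 : 0 ≤ W x ^ 2 * rho x := mul_nonneg (sq_nonneg _) (rho_pos x).le
  have h3 := mul_le_mul_of_nonneg_left h1 h2
  linarith

lemma TG_mono (hS : GSlice m μ T H) (hW : TubeD W c K) {i j : ℕ} (h : i ≤ j) :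
    TG μ T W i ≤ TG μ T W j := by
  refine integral_mono (hS.int_TG hW i) (hS.int_TG hW j) fun x => ?_
  have h1 := wt_mono h x
  have h2 : 0 ≤ ‖proj (T x) (grad W x)‖ ^ 2 * rho x := mul_nonneg (sq_nonneg _) (rho_pos x).le
  have h3 := mul_le_mul_of_nonneg_left h1 h2
  simp only
  linarith

lemma rsq_nonneg (W : E → ℝ) (η : Fin l → E → ℝ) (μ : Measure E) : 0 ≤ rsq W η μ :=
  Finset.sum_nonneg fun j _ => sq_nonneg _

end mono

lemma co_apply (W : E → ℝ) (ζ : Fin k → E → ℝ) (μ : Measure E) (i : Fin k) :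
    co W ζ μ i = ∫ x, W x * ζ i x * rho x ∂μ := rfl

/-- the squared distance tends to zero near `κ` -/
lemma tendsto_DD_zero [IsLocallyFiniteMeasure κ] (hW : TubeD W c K) (h0 : ∀ᵐ x ∂κ, W x = 0)
    {U : Ultrafilter (Tri E)} (hc : Conv U m (·.μ) (·.T) (·.H) κ) :
    Tendsto (fun t : Tri E => DD t.μ W 0) U (𝓝 0) := by
  have h1 : Tendsto (fun t : Tri E => ∫ x, W x ^ 2 * rho x ∂t.μ) U
      (𝓝 (∫ x, W x ^ 2 * rho x ∂κ)) := hc.lim_PB (hW.cont.pow 2) (hW.pg.b0.pow 2)
  have e : ∫ x, W x ^ 2 * rho x ∂κ = 0 := by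
    refine integral_eq_zero_of_ae ?_
    filter_upwards [h0] with x hx
    simp [hx]
  rw [e] at h1
  refine h1.congr fun t => (DD_zero_eq t.μ W).symm

/-- bound for the quadratic form of the coordinates -/
lemma quad_le {B : Fin k → Fin k → Fin k → ℝ} {a : Fin k → ℝ} {L : ℝ} (hL : 0 ≤ L)
    (ha : ∀ i, |a i| ≤ L) (i : Fin k) :
    |∑ p, ∑ r, a p * a r * B p r i| ≤ (∑ p, ∑ r, ∑ i, |B p r i|) * L ^ 2 := by
  rw [Finset.sum_mul]
  refine (Finset.abs_sum_le_sum_abs _ _).trans (Finset.sum_le_sum fun p _ => ?_)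
  rw [Finset.sum_mul]
  refine (Finset.abs_sum_le_sum_abs _ _).trans (Finset.sum_le_sum fun r _ => ?_)
  rw [abs_mul, abs_mul]
  have h1 : |B p r i| ≤ ∑ i, |B p r i| :=
    Finset.single_le_sum (f := fun i => |B p r i|) (fun i _ => abs_nonneg _) (Finset.mem_univ i)
  have h2 : |a p| * |a r| ≤ L ^ 2 := by
    rw [sq]; exact mul_le_mul (ha p) (ha r) (abs_nonneg _) hL
  calc |a p| * |a r| * |B p r i| ≤ L ^ 2 * ∑ i, |B p r i| :=
        mul_le_mul h2 h1 (abs_nonneg _) (by positivity)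
    _ = _ := by ring

lemma int_lin (hD : SOD m κ W c K q ζ η) (hmom : ∀ p : ℕ,
    Integrable (fun x => (1 + ‖x‖) ^ p * rho x) κ) {f : E → ℝ} (hf : Continuous f)
    (hfb : PB f) : Integrable (fun x => f x * rho x) κ := by
  obtain ⟨C, p, hC, hb⟩ := hfb
  refine ((hmom p).const_mul C).mono' (hf.mul continuous_rho).aestronglyMeasurable
    (Eventually.of_forall fun x => ?_)
  rw [norm_mul, Real.norm_of_nonneg (rho_pos x).le, ← mul_assoc]
  exact mul_le_mul_of_nonneg_right (hb x) (rho_pos x).le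

lemma cont_sum {n : ℕ} {f : Fin n → E → ℝ} (hf : ∀ i, Continuous (f i)) (x : Fin n → ℝ) :
    Continuous (fun p => ∑ i, x i * f i p) :=
  continuous_finsetSum _ fun i _ => continuous_const.mul (hf i)

lemma pb_sum {n : ℕ} {f : Fin n → E → ℝ} (hf : ∀ i, PB (f i)) (x : Fin n → ℝ) :
    PB (fun p => ∑ i, x i * f i p) := by
  classical
  have : ∀ s : Finset (Fin n), PB (fun p => ∑ i ∈ s, x i * f i p) := by
    intro s
    induction s using Finset.induction_on with
    | empty => simpa using PB.const (0 : ℝ)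
    | insert a s ha ih =>
      simp_rw [Finset.sum_insert ha]
      exact ((hf a).const_mul (x a)).add ih
  exact this Finset.univ

/-- the limit of the blow-up is a combination of the `ζ i` if the rotation coordinates are
negligible, and the coordinates converge -/
lemma blow_lim (hD : SOD m κ W c K q ζ η) {C₀ : ℝ} {J₀ : ℕ}
    {B : Fin k → Fin k → Fin k → ℝ} (hI : Inp m κ W ζ η C₀ J₀ B) {U : Ultrafilter (Tri E)}
    (hc : Conv U m (·.μ) (·.T) (·.H) κ)
    (hpos : ∀ᶠ t in (U : Filter (Tri E)), 0 < DD t.μ W 0)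
    (hDD : Tendsto (fun t : Tri E => DD t.μ W 0) U (𝓝 0))
    (hdis : Tendsto (fun t : Tri E => dis t.μ t.T t.H / DD t.μ W 0) U (𝓝 0))
    (hrsq : Tendsto (fun t : Tri E => rsq W η t.μ / DD t.μ W 0) U (𝓝 0)) :
    ∃ a : EuclideanSpace ℝ (Fin k), (∀ f : E → ℝ, Continuous f → PB f →
      Tendsto (fun t : Tri E => ∫ x, nh t.μ W x * f x * rho x ∂t.μ) U
        (𝓝 (∫ x, f x * lc ζ a x * rho x ∂κ))) ∧
      ∀ i, Tendsto (fun t : Tri E => (√(DD t.μ W 0))⁻¹ * co W ζ t.μ i) U (𝓝 (a i)) := by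
  have hmom := hc.mom_lim
  obtain ⟨x, y, hxy⟩ := hI.lim U hc hpos hDD hdis
  set g : E → ℝ := fun p => ∑ j, y j * η j p with hg
  have hgc : Continuous g := cont_sum hD.contη y
  have hgb : PB g := pb_sum hD.pbη y
  set a : EuclideanSpace ℝ (Fin k) := WithLp.toLp 2 x with ha
  have hlc : ∀ p, lc ζ a p = ∑ i, x i * ζ i p := fun p => rfl
  have hlcc : Continuous (lc ζ a) := cont_sum hD.contζ x
  have hlcb : PB (lc ζ a) := pb_sum hD.pbζ x
  -- orthogonality
  have horth : ∫ p, g p * lc ζ a p * rho p ∂κ = 0 := by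
    have e : ∀ p, g p * lc ζ a p * rho p = ∑ j, ∑ i, y j * x i * (ζ i p * η j p * rho p) := by
      intro p
      rw [hlc, hg]
      simp only
      rw [Finset.sum_mul_sum, Finset.sum_mul]
      refine Finset.sum_congr rfl fun j _ => ?_
      rw [Finset.sum_mul]
      refine Finset.sum_congr rfl fun i _ => ?_
      ring
    simp_rw [e]
    have hi : ∀ (j : Fin l) (i : Fin k),
        Integrable (fun p => y j * x i * (ζ i p * η j p * rho p)) κ := fun j i =>
      (int_lin hD hmom ((hD.contζ i).mul (hD.contη j)) ((hD.pbζ i).mul (hD.pbη j))).const_mul _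
    rw [integral_finsetSum _ fun j _ => integrable_finsetSum _ fun i _ => hi j i]
    refine Finset.sum_eq_zero fun j _ => ?_
    rw [integral_finsetSum _ fun i _ => hi j i]
    refine Finset.sum_eq_zero fun i _ => ?_
    rw [integral_const_mul, hD.orth i j, mul_zero]
  -- the rotation part vanishes
  have hg0 : Tendsto (fun t : Tri E => ∫ x, nh t.μ W x * g x * rho x ∂t.μ) U (𝓝 0) := by
    have hs : Tendsto (fun t : Tri E => (∑ j, |y j|) * √(rsq W η t.μ / DD t.μ W 0)) U (𝓝 0) := by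
      have := (hrsq.sqrt).const_mul (∑ j, |y j|)
      rwa [Real.sqrt_zero, mul_zero] at this
    refine squeeze_zero_norm' ?_ hs
    filter_upwards [hc.sl, hpos] with t ht hp
    have e : ∫ x, nh t.μ W x * g x * rho x ∂t.μ
        = ∑ j, y j * ((√(DD t.μ W 0))⁻¹ * ∫ x, W x * η j x * rho x ∂t.μ) := by
      have e1 : ∀ x, nh t.μ W x * g x * rho x
          = ∑ j, y j * (√(DD t.μ W 0))⁻¹ * (W x * η j x * rho x) := by
        intro x
        simp only [nh, hg]
        rw [Finset.mul_sum, Finset.sum_mul]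
        refine Finset.sum_congr rfl fun j _ => ?_
        ring
      simp_rw [e1]
      have hi : ∀ j, Integrable (fun x => y j * (√(DD t.μ W 0))⁻¹ * (W x * η j x * rho x))
          t.μ := fun j => (ht.integrable_PB (u := fun x => W x * η j x)
        (hD.tube.cont.mul (hD.contη j)).aestronglyMeasurable
          (hD.tube.pg.b0.mul (hD.pbη j))).const_mul _
      rw [integral_finsetSum _ fun j _ => hi j]
      refine Finset.sum_congr rfl fun j _ => ?_
      rw [integral_const_mul]; ring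
    rw [e, Real.norm_eq_abs, Finset.sum_mul]
    refine (Finset.abs_sum_le_sum_abs _ _).trans (Finset.sum_le_sum fun j _ => ?_)
    rw [abs_mul]
    refine mul_le_mul_of_nonneg_left ?_ (abs_nonneg _)
    rw [abs_mul, abs_of_nonneg (by positivity), Real.sqrt_div (rsq_nonneg _ _ _),
      inv_mul_eq_div]
    refine div_le_div_of_nonneg_right ?_ (Real.sqrt_nonneg _)
    rw [← Real.sqrt_sq_eq_abs]
    refine Real.sqrt_le_sqrt ?_
    exact Finset.single_le_sum (f := fun j => (∫ x, W x * η j x * rho x ∂t.μ) ^ 2)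
      (fun j _ => sq_nonneg _) (Finset.mem_univ j)
  have hgg : ∫ p, g p ^ 2 * rho p ∂κ = 0 := by
    have h1 := tendsto_nhds_unique hg0 (hxy g hgc hgb)
    have i1 : Integrable (fun p => g p * lc ζ a p * rho p) κ :=
      int_lin hD hmom (hgc.mul hlcc) (hgb.mul hlcb)
    have i2 : Integrable (fun p => g p ^ 2 * rho p) κ := int_lin hD hmom (hgc.pow 2) (hgb.pow 2)
    have e : ∫ p, g p * (∑ i, x i * ζ i p + ∑ j, y j * η j p) * rho p ∂κ
        = ∫ p, g p * lc ζ a p * rho p ∂κ + ∫ p, g p ^ 2 * rho p ∂κ := by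
      rw [← integral_add i1 i2]
      congr 1; ext p
      rw [hlc]; simp only [hg]; ring
    rw [e, horth, zero_add] at h1
    exact h1.symm
  have hgae : ∀ᵐ p ∂κ, g p = 0 := by
    have h1 := (integral_eq_zero_iff_of_nonneg (fun x => mul_nonneg (sq_nonneg _)
      (rho_pos x).le) (int_lin hD hmom (hgc.pow 2) (hgb.pow 2))).1 hgg
    filter_upwards [h1] with x hx
    have h2 : g x ^ 2 * rho x = 0 := hx
    rcases mul_eq_zero.1 h2 with h3 | h3
    · exact pow_eq_zero_iff (two_ne_zero) |>.1 h3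
    · exact absurd h3 (rho_pos x).ne'
  have hlim : ∀ f : E → ℝ, Continuous f → PB f →
      Tendsto (fun t : Tri E => ∫ x, nh t.μ W x * f x * rho x ∂t.μ) U
        (𝓝 (∫ x, f x * lc ζ a x * rho x ∂κ)) := by
    intro f hf hfb
    have h1 := hxy f hf hfb
    have e : ∫ p, f p * (∑ i, x i * ζ i p + ∑ j, y j * η j p) * rho p ∂κ
        = ∫ x, f x * lc ζ a x * rho x ∂κ := by
      refine integral_congr_ae ?_
      filter_upwards [hgae] with p hp
      simp only [hg] at hp
      rw [hp, add_zero, hlc]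
    rwa [e] at h1
  refine ⟨a, hlim, fun i => ?_⟩
  have h1 := hlim (ζ i) (hD.contζ i) (hD.pbζ i)
  have e : ∫ p, ζ i p * lc ζ a p * rho p ∂κ = a i := by
    have e1 : ∀ p, ζ i p * lc ζ a p * rho p = ∑ j, x j * (ζ i p * ζ j p * rho p) := by
      intro p
      rw [hlc, Finset.mul_sum, Finset.sum_mul]
      refine Finset.sum_congr rfl fun j _ => ?_
      ring
    simp_rw [e1]
    have hi : ∀ j, Integrable (fun p => x j * (ζ i p * ζ j p * rho p)) κ := fun j =>
      (int_lin hD hmom (f := fun p => ζ i p * ζ j p) ((hD.contζ i).mul (hD.contζ j))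
        ((hD.pbζ i).mul (hD.pbζ j))).const_mul _
    rw [integral_finsetSum _ fun j _ => hi j]
    simp_rw [integral_const_mul, hD.on i]
    simp [ha]
  rw [e] at h1
  refine h1.congr fun t => ?_
  rw [co_apply, ← integral_const_mul]
  congr 1; ext x
  simp only [nh]; ring

end Vale.Agent.P218.H588
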