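import Vale.Agent.P218.H588.Stat2

/-! Second order: the static estimates L1, L2, L3. -/

open MeasureTheory Set Filter Topology Metric
open scoped ENNReal NNReal RealInnerProductSpace CompactlySupported

namespace Vale.Agent.P218.H588

open Vale.Agent.P214 (IntegralVarifold proj divAlong IsTestField)
open Vale.Agent.P218.H313

set_option linter.unusedSectionVars false
set_option linter.unusedVariables false

variable {E : Type*} [NormedAddCommGroup E] [InnerProductSpace ℝ E] [FiniteDimensional ℝ E]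
  [MeasurableSpace E] [BorelSpace E]
variable {m : ℕ} {κ : Measure E} {W : E → ℝ} {c K : ℝ} {q k l : ℕ} {ζ : Fin k → E → ℝ}
  {η : Fin l → E → ℝ} {CM : ℕ → ℝ} {CR : ℝ} {C₀ : ℝ} {J₀ : ℕ} {B : Fin k → Fin k → Fin k → ℝ}

lemma SOD.K_nn (hD : SOD m κ W c K q ζ η) : 0 ≤ K := hD.tube.K_nonneg

/-- crude bound of the deviation -/
lemma dev_le (hD : SOD m κ W c K q ζ η) (hI : Inp m κ W ζ η C₀ J₀ B) (CM : ℕ → ℝ) :
    ∃ b : ℝ, 0 ≤ b ∧ ∀ t : Tri E, GSlice m t.μ t.T t.H →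
      (∀ p, ∫ x, (1 + ‖x‖) ^ p * rho x ∂t.μ ≤ CM p) → ∀ i,
      |Phi κ W (lc ζ (co W ζ t.μ)) (lc ζ (co W ζ t.μ)) (ζ i)| ≤ b * DD t.μ W 0 := by
  set L := K * √(CM (2 * q)) with hL
  have hK := hD.K_nn
  have hL0 : 0 ≤ L := by positivity
  refine ⟨(∑ p, ∑ r, ∑ i, |B p r i|) * L ^ 2, by positivity, fun t ht hM i => ?_⟩
  rw [hI.quad]
  have h1 : ∀ i, |co W ζ t.μ i| ≤ L * √(DD t.μ W 0) := fun i =>
    abs_coord_le ht hD.tube (hD.contζ i) hK (hD.b0 i) (hM _)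
  refine (quad_le (by positivity) h1 i).trans (le_of_eq ?_)
  rw [mul_pow, Real.sq_sqrt (DD_nonneg 0)]
  ring

/-- the ratio `Phi(co, co, ζ i) / DD` converges -/
lemma tendsto_phi (hI : Inp m κ W ζ η C₀ J₀ B) {U : Ultrafilter (Tri E)}
    (hpos : ∀ᶠ t in (U : Filter (Tri E)), 0 < DD t.μ W 0) {a : EuclideanSpace ℝ (Fin k)}
    (ha : ∀ i, Tendsto (fun t : Tri E => (√(DD t.μ W 0))⁻¹ * co W ζ t.μ i) U (𝓝 (a i)))
    (i : Fin k) :
    Tendsto (fun t : Tri E => Phi κ W (lc ζ (co W ζ t.μ)) (lc ζ (co W ζ t.μ)) (ζ i)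
      / DD t.μ W 0) U (𝓝 (Phi κ W (lc ζ a) (lc ζ a) (ζ i))) := by
  have h1 : Tendsto (fun t : Tri E => ∑ p, ∑ r, ((√(DD t.μ W 0))⁻¹ * co W ζ t.μ p)
      * ((√(DD t.μ W 0))⁻¹ * co W ζ t.μ r) * B p r i) U (𝓝 (∑ p, ∑ r, a p * a r * B p r i)) :=
    tendsto_finsetSum _ fun p _ => tendsto_finsetSum _ fun r _ =>
      ((ha p).mul (ha r)).mul_const _
  rw [← hI.quad] at h1
  refine h1.congr' ?_
  filter_upwards [hpos] with t hp
  rw [hI.quad, Finset.sum_div]
  refine Finset.sum_congr rfl fun p _ => ?_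
  rw [Finset.sum_div]
  refine Finset.sum_congr rfl fun r _ => ?_
  have h2 : (√(DD t.μ W 0))⁻¹ * (√(DD t.μ W 0))⁻¹ = (DD t.μ W 0)⁻¹ := by
    rw [← mul_inv, Real.mul_self_sqrt hp.le]
  rw [div_eq_mul_inv, ← h2]
  ring

/-- **L1: the static rate** -/
theorem static_rate (hm : 0 < m) (hE : Module.finrank ℝ E = m + 1) [IsLocallyFiniteMeasure κ]
    (hD : SOD m κ W c K q ζ η) (hI : Inp m κ W ζ η C₀ J₀ B) (CM : ℕ → ℝ) (CR : ℝ) :
    ∀ ε > 0, ∃ C : ℝ, 0 ≤ C ∧ ∀ᶠ t in nearS m κ CM CR, ∀ i,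
      |EE t.μ t.T t.H (fun y => W y * ζ i y)
          - Phi κ W (lc ζ (co W ζ t.μ)) (lc ζ (co W ζ t.μ)) (ζ i)|
        ≤ ε * (DD t.μ W (J₀ + 1) + TG t.μ t.T W (J₀ + 1))
          + C * (dis t.μ t.T t.H + rsq W η t.μ) := by
  intro ε hε
  by_contra hcon
  push Not at hcon
  have hW := hD.tube
  have hK := hD.K_nn
  obtain ⟨b, hb, hdev⟩ := dev_le hD hI CM
  obtain ⟨CT, hCT, hTG⟩ := exists_TG_le (E := E) hE hW.cpos hK
  set X : Tri E → Fin k → ℝ := fun t i => |EE t.μ t.T t.H (fun y => W y * ζ i y)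
          - Phi κ W (lc ζ (co W ζ t.μ)) (lc ζ (co W ζ t.μ)) (ζ i)| with hX
  set Y : Tri E → ℝ := fun t => dis t.μ t.T t.H + rsq W η t.μ with hY
  set Z : Tri E → ℝ := fun t => DD t.μ W (J₀ + 1) + TG t.μ t.T W (J₀ + 1) with hZ
  have hY0 : ∀ t, 0 ≤ Y t := fun t => add_nonneg dis_nonneg (rsq_nonneg _ _ _)
  have hZ0 : ∀ t, 0 ≤ Z t := fun t => add_nonneg (DD_nonneg _) (TG_nonneg _)
  obtain ⟨U, hU, hS⟩ := exists_ultra (f := nearS m κ CM CR)
    (S := fun n => {t | ∃ i, ε * Z t + (n : ℝ) * Y t < X t i})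
    (fun i j hij t ht => by
      obtain ⟨i', h1⟩ := ht
      refine ⟨i', lt_of_le_of_lt ?_ h1⟩
      have : (i : ℝ) * Y t ≤ j * Y t :=
        mul_le_mul_of_nonneg_right (by exact_mod_cast hij) (hY0 t)
      linarith)
    (fun n => (hcon n n.cast_nonneg).mono fun t ht => ht)
  have hc := nearS_conv hU
  -- the constants
  set δ := ε / (2 * (C₀ + 1)) with hδ
  have hC₀ := hI.nn
  have hδ0 : 0 < δ := by positivity
  have hδε : C₀ * δ ≤ ε / 2 := by
    rw [hδ, mul_div_assoc', div_le_div_iff₀ (by positivity) (by norm_num)]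
    nlinarith
  set C₁ := C₀ * ((δ⁻¹) ^ J₀ * (1 + CT)) + C₀ + b with hC₁
  have hC₁0 : 0 ≤ C₁ := by positivity
  have hbound : ∀ᶠ t in (U : Filter (Tri E)), ∀ i,
      X t i ≤ ε / 2 * Z t + C₁ * (DD t.μ W 0 + dis t.μ t.T t.H) := by
    filter_upwards [hU nearS_mem] with t ht i
    obtain ⟨hsl, hmo, -⟩ := ht
    have h1 : X t i ≤ |EE t.μ t.T t.H (fun y => W y * ζ i y)|
        + |Phi κ W (lc ζ (co W ζ t.μ)) (lc ζ (co W ζ t.μ)) (ζ i)| := abs_sub _ _
    have h2 := hI.crude i t.μ t.T t.H hsl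
    have h3 := hdev t hsl hmo i
    have h4 := DD_interp hsl hW hδ0 J₀
    have h5 := TG_interp hsl hW hδ0 J₀
    have h6 := hTG W hW t.μ t.T t.H hsl
    have hD0 := DD_nonneg (μ := t.μ) (W := W) 0
    have hd0 := dis_nonneg (μ := t.μ) (T := t.T) (H := t.H)
    have hi0 : 0 ≤ (δ⁻¹) ^ J₀ := by positivity
    have h7 : (δ⁻¹) ^ J₀ * TG t.μ t.T W 0 ≤ (δ⁻¹) ^ J₀ * (CT * (DD t.μ W 0 + dis t.μ t.T t.H)) :=
      mul_le_mul_of_nonneg_left h6 hi0
    have h8 : (δ⁻¹) ^ J₀ * DD t.μ W 0 ≤ (δ⁻¹) ^ J₀ * (DD t.μ W 0 + dis t.μ t.T t.H) :=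
      mul_le_mul_of_nonneg_left (by linarith) hi0
    have h9 : DD t.μ W J₀ + TG t.μ t.T W J₀ + dis t.μ t.T t.H
        ≤ δ * Z t + (δ⁻¹) ^ J₀ * (1 + CT) * (DD t.μ W 0 + dis t.μ t.T t.H)
          + (DD t.μ W 0 + dis t.μ t.T t.H) := by
      simp only [hZ]
      linarith
    have h10 := h2.trans (mul_le_mul_of_nonneg_left h9 hC₀)
    have h11 : C₀ * δ * Z t ≤ ε / 2 * Z t := mul_le_mul_of_nonneg_right hδε (hZ0 t)
    have h12 : b * DD t.μ W 0 ≤ b * (DD t.μ W 0 + dis t.μ t.T t.H) :=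
      mul_le_mul_of_nonneg_left (by linarith) hb
    rw [hC₁]
    linarith
  -- the key inequality
  have hkey : ∀ n : ℕ, 2 * C₁ ≤ n → ∀ᶠ t in (U : Filter (Tri E)),
      ε / 2 * Z t + (n : ℝ) / 2 * Y t < C₁ * DD t.μ W 0 := by
    intro n hn
    filter_upwards [hS n, hbound] with t h1 h2
    obtain ⟨i, h3⟩ := h1
    have h4 := h2 i
    have hr := rsq_nonneg W η t.μ
    have hd0 := dis_nonneg (μ := t.μ) (T := t.T) (H := t.H)
    have h5 : C₁ * dis t.μ t.T t.H ≤ (n : ℝ) / 2 * Y t := by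
      have h6 : dis t.μ t.T t.H ≤ Y t := by simp only [hY]; linarith
      calc C₁ * dis t.μ t.T t.H ≤ (n : ℝ) / 2 * dis t.μ t.T t.H :=
            mul_le_mul_of_nonneg_right (by linarith) hd0
        _ ≤ _ := mul_le_mul_of_nonneg_left h6 (by positivity)
    linarith
  obtain ⟨n₀, hn₀⟩ := exists_nat_ge (2 * C₁)
  have hpos : ∀ᶠ t in (U : Filter (Tri E)), 0 < DD t.μ W 0 := by
    filter_upwards [hkey n₀ hn₀] with t ht
    have h1 : 0 ≤ ε / 2 * Z t := mul_nonneg (by positivity) (hZ0 t)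
    have h2 : 0 ≤ (n₀ : ℝ) / 2 * Y t := mul_nonneg (by positivity) (hY0 t)
    by_contra h3
    push Not at h3
    have h4 : C₁ * DD t.μ W 0 ≤ 0 := mul_nonpos_of_nonneg_of_nonpos hC₁0 h3
    linarith
  have hM : ∃ M, ∀ᶠ t in (U : Filter (Tri E)), DD t.μ W J₀ + TG t.μ t.T W J₀
      ≤ M * DD t.μ W 0 := by
    refine ⟨2 * C₁ / ε, ?_⟩
    filter_upwards [hkey n₀ hn₀, hU nearS_mem] with t ht hs
    have h2 : 0 ≤ (n₀ : ℝ) / 2 * Y t := mul_nonneg (by positivity) (hY0 t)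
    have h3 : ε / 2 * Z t ≤ C₁ * DD t.μ W 0 := by linarith
    have h4 : Z t ≤ 2 * C₁ / ε * DD t.μ W 0 := by
      rw [div_mul_eq_mul_div, le_div_iff₀ hε]
      linarith
    have h5 := DD_mono hs.1 hW (Nat.le_succ J₀)
    have h6 := TG_mono hs.1 hW (Nat.le_succ J₀)
    simp only [hZ] at h4
    linarith
  have hYr : Tendsto (fun t => Y t / DD t.μ W 0) U (𝓝 0) := by
    rw [Metric.tendsto_nhds]
    intro e he
    obtain ⟨n, hn⟩ := exists_nat_gt (max (2 * C₁) (2 * C₁ / e))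
    have hn1 : 2 * C₁ ≤ n := (le_max_left _ _).trans hn.le
    have hn2 : 2 * C₁ / e < n := (le_max_right _ _).trans_lt hn
    filter_upwards [hkey n hn1, hpos] with t ht hp
    have h1 : 0 ≤ ε / 2 * Z t := mul_nonneg (by positivity) (hZ0 t)
    have h2 : (n : ℝ) / 2 * Y t < C₁ * DD t.μ W 0 := by linarith
    rw [Real.dist_eq, sub_zero, abs_of_nonneg (div_nonneg (hY0 t) hp.le), div_lt_iff₀ hp]
    rw [div_lt_iff₀ he] at hn2
    have hn0 : (0 : ℝ) < n := lt_of_le_of_ne n.cast_nonneg (fun h => by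
      rw [← h] at hn2; simp only [zero_mul] at hn2; linarith)
    by_contra h3
    push Not at h3
    have h4 : (n : ℝ) / 2 * (e * DD t.μ W 0) ≤ (n : ℝ) / 2 * Y t :=
      mul_le_mul_of_nonneg_left h3 (by positivity)
    have h5 : (n : ℝ) * e / 2 * DD t.μ W 0 < C₁ * DD t.μ W 0 := by linarith
    have h6 := lt_of_mul_lt_mul_right h5 hp.le
    linarith
  have hdis : Tendsto (fun t : Tri E => dis t.μ t.T t.H / DD t.μ W 0) U (𝓝 0) := by
    refine squeeze_zero' ?_ ?_ hYr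
    · filter_upwards [hpos] with t hp using div_nonneg dis_nonneg hp.le
    · filter_upwards [hpos] with t hp
      refine div_le_div_of_nonneg_right ?_ hp.le
      have := rsq_nonneg W η t.μ
      simp only [hY]; linarith
  have hrsq : Tendsto (fun t : Tri E => rsq W η t.μ / DD t.μ W 0) U (𝓝 0) := by
    refine squeeze_zero' ?_ ?_ hYr
    · filter_upwards [hpos] with t hp using div_nonneg (rsq_nonneg _ _ _) hp.le
    · filter_upwards [hpos] with t hp
      refine div_le_div_of_nonneg_right ?_ hp.le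
      have := dis_nonneg (μ := t.μ) (T := t.T) (H := t.H)
      simp only [hY]; linarith
  have hDD := tendsto_DD_zero hW hD.zero hc
  obtain ⟨a, ha1, ha2⟩ := blow_lim hD hI hc hpos hDD hdis hrsq
  have hfine := hI.fine U hc hpos hDD hdis hM a ha1
  have hfin : ∀ᶠ t in (U : Filter (Tri E)), ∀ i, X t i < ε * DD t.μ W 0 := by
    rw [eventually_all]
    intro i
    have h1 := (hfine i).sub (tendsto_phi hI hpos ha2 i)
    rw [sub_self] at h1
    have h2 := (Metric.tendsto_nhds.1 h1) ε hε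
    filter_upwards [h2, hpos] with t ht hp
    rw [dist_zero_right, Real.norm_eq_abs, ← sub_div, abs_div, abs_of_pos hp,
      div_lt_iff₀ hp] at ht
    exact ht
  obtain ⟨t, h1, h2, h3⟩ := (hfin.and ((hS 0).and (hU nearS_mem))).exists
  obtain ⟨i, h4⟩ := h2
  have h5 := h1 i
  have h6 := DD_mono h3.1 hW (Nat.zero_le (J₀ + 1))
  have h7 : ε * DD t.μ W 0 ≤ ε * Z t := by
    refine mul_le_mul_of_nonneg_left ?_ hε.le
    have := TG_nonneg (μ := t.μ) (T := t.T) (W := W) (J₀ + 1)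
    simp only [hZ]; linarith
  rw [Nat.cast_zero, zero_mul, add_zero] at h4
  linarith

/-- **L2: the static estimate** -/
theorem static_coer (hm : 0 < m) (hE : Module.finrank ℝ E = m + 1) [IsLocallyFiniteMeasure κ]
    (hD : SOD m κ W c K q ζ η) (CM : ℕ → ℝ) (CR : ℝ) : ∃ C : ℝ, 0 ≤ C ∧
    ∀ᶠ t in nearS m κ CM CR,
      DD t.μ W 0 ≤ C * (‖co W ζ t.μ‖ ^ 2 + dis t.μ t.T t.H + rsq W η t.μ) := by
  by_contra hcon
  push Not at hcon
  have hW := hD.tube
  set Y : Tri E → ℝ := fun t => ‖co W ζ t.μ‖ ^ 2 + dis t.μ t.T t.H + rsq W η t.μ with hY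
  have hY0 : ∀ t, 0 ≤ Y t := fun t =>
    add_nonneg (add_nonneg (sq_nonneg _) dis_nonneg) (rsq_nonneg _ _ _)
  obtain ⟨U, hU, hS⟩ := exists_ultra (f := nearS m κ CM CR)
    (S := fun n => {t | (n : ℝ) * Y t < DD t.μ W 0})
    (fun i j hij t ht => by
      have h1 : (j : ℝ) * Y t < DD t.μ W 0 := ht
      exact lt_of_le_of_lt
        (mul_le_mul_of_nonneg_right (by exact_mod_cast hij) (hY0 t)) h1)
    (fun n => (hcon n n.cast_nonneg).mono fun t ht => ht)
  have hc := nearS_conv hU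
  have hpos : ∀ᶠ t in (U : Filter (Tri E)), 0 < DD t.μ W 0 := by
    filter_upwards [hS 0] with t ht
    simpa using ht
  have hDD := tendsto_DD_zero hW hD.zero hc
  have hYr : Tendsto (fun t => Y t / DD t.μ W 0) U (𝓝 0) := by
    rw [Metric.tendsto_nhds]
    intro e he
    obtain ⟨n, hn⟩ := exists_nat_gt (1 / e)
    filter_upwards [hS n, hpos] with t ht hp
    have h2 : (n : ℝ) * Y t < DD t.μ W 0 := ht
    rw [Real.dist_eq, sub_zero, abs_of_nonneg (div_nonneg (hY0 t) hp.le), div_lt_iff₀ hp]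
    rw [div_lt_iff₀ he] at hn
    have h3 : Y t ≤ n * e * Y t := le_mul_of_one_le_left (hY0 t) hn.le
    have h4 : e * (n * Y t) < e * DD t.μ W 0 := mul_lt_mul_of_pos_left h2 he
    linarith
  have hdis : Tendsto (fun t : Tri E => dis t.μ t.T t.H / DD t.μ W 0) U (𝓝 0) := by
    refine squeeze_zero' ?_ ?_ hYr
    · filter_upwards [hpos] with t hp using div_nonneg dis_nonneg hp.le
    · filter_upwards [hpos] with t hp
      refine div_le_div_of_nonneg_right ?_ hp.le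
      have := rsq_nonneg W η t.μ
      have := sq_nonneg ‖co W ζ t.μ‖
      simp only [hY]; linarith
  have hsY : Tendsto (fun t => √(Y t / DD t.μ W 0)) U (𝓝 0) := by
    have := hYr.sqrt; rwa [Real.sqrt_zero] at this
  have hζ0 : ∀ i, Tendsto (fun t : Tri E => (∫ x, W x * ζ i x * rho x ∂t.μ)
      / √(DD t.μ W 0)) U (𝓝 0) := by
    intro i
    refine squeeze_zero_norm' ?_ hsY
    filter_upwards [hpos] with t hp
    rw [norm_div, Real.norm_of_nonneg (Real.sqrt_nonneg _), Real.sqrt_div (hY0 t)]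
    refine div_le_div_of_nonneg_right ?_ (Real.sqrt_nonneg _)
    rw [Real.norm_eq_abs, ← Real.sqrt_sq_eq_abs]
    refine Real.sqrt_le_sqrt ?_
    have h1 : (∫ x, W x * ζ i x * rho x ∂t.μ) ^ 2 ≤ ‖co W ζ t.μ‖ ^ 2 := by
      rw [EuclideanSpace.norm_sq_eq]
      have := Finset.single_le_sum (f := fun i => ‖co W ζ t.μ i‖ ^ 2)
        (fun i _ => sq_nonneg _) (Finset.mem_univ i)
      simp only [Real.norm_eq_abs, sq_abs] at this ⊢
      exact this
    have := rsq_nonneg W η t.μ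
    have := dis_nonneg (μ := t.μ) (T := t.T) (H := t.H)
    simp only [hY]; linarith
  have hη0 : ∀ j, Tendsto (fun t : Tri E => (∫ x, W x * η j x * rho x ∂t.μ)
      / √(DD t.μ W 0)) U (𝓝 0) := by
    intro j
    refine squeeze_zero_norm' ?_ hsY
    filter_upwards [hpos] with t hp
    rw [norm_div, Real.norm_of_nonneg (Real.sqrt_nonneg _), Real.sqrt_div (hY0 t)]
    refine div_le_div_of_nonneg_right ?_ (Real.sqrt_nonneg _)
    rw [Real.norm_eq_abs, ← Real.sqrt_sq_eq_abs]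
    refine Real.sqrt_le_sqrt ?_
    have h1 : (∫ x, W x * η j x * rho x ∂t.μ) ^ 2 ≤ rsq W η t.μ :=
      Finset.single_le_sum (f := fun j => (∫ x, W x * η j x * rho x ∂t.μ) ^ 2)
        (fun i _ => sq_nonneg _) (Finset.mem_univ j)
    have := sq_nonneg ‖co W ζ t.μ‖
    have := dis_nonneg (μ := t.μ) (T := t.T) (H := t.H)
    simp only [hY]; linarith
  refine blow hm hE hc hD.dens hW (Wi := fun _ => W) (Eventually.of_forall fun _ => hW) ?_
    (V := {v | ∃ (x : Fin k → ℝ) (y : Fin l → ℝ),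
      v = fun p => ∑ i, x i * ζ i p + ∑ j, y j * η j p}) ?_ ?_ ?_ hpos hDD hdis
  · intro ξ hξ hξc ε hε
    refine Eventually.of_forall fun t x => ?_
    rw [sub_self, abs_zero]; exact hε.le
  · rintro _ ⟨x, y, rfl⟩
    exact ⟨(cont_sum hD.contζ x).add (cont_sum hD.contη y),
      (pb_sum hD.pbζ x).add (pb_sum hD.pbη y)⟩
  · rintro _ ⟨x, y, rfl⟩
    have h1 : Tendsto (fun t : Tri E => ∑ i, x i * ((∫ p, W p * ζ i p * rho p ∂t.μ)
        / √(DD t.μ W 0)) + ∑ j, y j * ((∫ p, W p * η j p * rho p ∂t.μ) / √(DD t.μ W 0))) U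
        (𝓝 (∑ i, x i * 0 + ∑ j, y j * 0)) :=
      (tendsto_finsetSum _ fun i _ => (hζ0 i).const_mul _).add
        (tendsto_finsetSum _ fun j _ => (hη0 j).const_mul _)
    simp only [mul_zero, Finset.sum_const_zero, add_zero] at h1
    refine h1.congr' ?_
    filter_upwards [hc.sl] with t ht
    have i1 : ∀ i, Integrable (fun p => x i * (W p * ζ i p * rho p)) t.μ := fun i =>
      (ht.integrable_PB (u := fun p => W p * ζ i p)
        (hW.cont.mul (hD.contζ i)).aestronglyMeasurable (hW.pg.b0.mul (hD.pbζ i))).const_mul _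
    have i2 : ∀ j, Integrable (fun p => y j * (W p * η j p * rho p)) t.μ := fun j =>
      (ht.integrable_PB (u := fun p => W p * η j p)
        (hW.cont.mul (hD.contη j)).aestronglyMeasurable (hW.pg.b0.mul (hD.pbη j))).const_mul _
    have e1 : ∀ p, W p * (∑ i, x i * ζ i p + ∑ j, y j * η j p) * rho p
        = ∑ i, x i * (W p * ζ i p * rho p) + ∑ j, y j * (W p * η j p * rho p) := by
      intro p
      rw [mul_add, add_mul, Finset.mul_sum, Finset.mul_sum, Finset.sum_mul, Finset.sum_mul]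
      congr 1
      · refine Finset.sum_congr rfl fun i _ => by ring
      · refine Finset.sum_congr rfl fun i _ => by ring
    simp_rw [e1]
    rw [integral_add (integrable_finsetSum _ fun i _ => i1 i)
      (integrable_finsetSum _ fun j _ => i2 j),
      integral_finsetSum _ fun i _ => i1 i, integral_finsetSum _ fun j _ => i2 j, add_div,
      Finset.sum_div, Finset.sum_div]
    simp_rw [integral_const_mul, mul_div_assoc]
  · intro u h1 h2 h3
    obtain ⟨x, y, hxy⟩ := hD.hnd u h1 h2 h3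
    exact ⟨_, ⟨x, y, rfl⟩, hxy⟩

/-- the nondegenerate quadratic map is coercive -/
lemma exists_quad_coer {B : Fin k → Fin k → Fin k → ℝ}
    (hnd : ∀ a : EuclideanSpace ℝ (Fin k), (∀ i, ∑ p, ∑ r, a p * a r * B p r i = 0) → a = 0) :
    ∃ c₁ : ℝ, 0 < c₁ ∧ ∀ a : EuclideanSpace ℝ (Fin k),
      c₁ * ‖a‖ ^ 2 ≤ ∑ i, |∑ p, ∑ r, a p * a r * B p r i| := by
  set g : EuclideanSpace ℝ (Fin k) → ℝ := fun a => ∑ i, |∑ p, ∑ r, a p * a r * B p r i| with hg
  have hgc : Continuous g := by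
    refine continuous_finsetSum _ fun i _ => Continuous.abs ?_
    refine continuous_finsetSum _ fun p _ => continuous_finsetSum _ fun r _ => ?_
    fun_prop
  have hhom : ∀ (s : ℝ) (a : EuclideanSpace ℝ (Fin k)), g (s • a) = s ^ 2 * g a := by
    intro s a
    simp only [hg]
    rw [Finset.mul_sum]
    refine Finset.sum_congr rfl fun i _ => ?_
    have : ∑ p, ∑ r, (s • a) p * (s • a) r * B p r i = s ^ 2 * ∑ p, ∑ r, a p * a r * B p r i := by
      rw [Finset.mul_sum]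
      refine Finset.sum_congr rfl fun p _ => ?_
      rw [Finset.mul_sum]
      refine Finset.sum_congr rfl fun r _ => ?_
      simp only [PiLp.smul_apply, smul_eq_mul]; ring
    rw [this, abs_mul, abs_of_nonneg (sq_nonneg s)]
  have hpos : ∀ a, a ≠ 0 → 0 < g a := by
    intro a ha
    refine lt_of_le_of_ne (Finset.sum_nonneg fun i _ => abs_nonneg _) fun h0 => ha ?_
    refine hnd a fun i => ?_
    have := (Finset.sum_eq_zero_iff_of_nonneg (fun i _ => abs_nonneg _)).1 h0.symm i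
      (Finset.mem_univ i)
    exact abs_eq_zero.1 this
  by_cases hne : (sphere (0 : EuclideanSpace ℝ (Fin k)) 1).Nonempty
  · obtain ⟨u, hu, hmin⟩ := (isCompact_sphere (0 : EuclideanSpace ℝ (Fin k)) 1).exists_isMinOn
      hne hgc.continuousOn
    rw [mem_sphere_zero_iff_norm] at hu
    have hu0 : u ≠ 0 := by rintro rfl; simp at hu
    refine ⟨g u, hpos u hu0, fun a => ?_⟩
    by_cases ha : a = 0
    · subst ha
      simp
    · have hn : 0 < ‖a‖ := norm_pos_iff.2 ha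
      have h1 : g u ≤ g (‖a‖⁻¹ • a) := hmin (by
        rw [mem_sphere_zero_iff_norm, norm_smul, norm_inv, norm_norm, inv_mul_cancel₀ hn.ne'])
      rw [hhom, inv_pow, inv_mul_eq_div, le_div_iff₀ (by positivity)] at h1
      exact h1
  · refine ⟨1, one_pos, fun a => ?_⟩
    have ha : a = 0 := by
      by_contra ha
      refine hne ⟨‖a‖⁻¹ • a, ?_⟩
      have hn : 0 < ‖a‖ := norm_pos_iff.2 ha
      rw [mem_sphere_zero_iff_norm, norm_smul, norm_inv, norm_norm, inv_mul_cancel₀ hn.ne']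
    subst ha
    simp

/-- **L3: the coordinates are small when the dissipation is small** -/
theorem static_co (hm : 0 < m) (hE : Module.finrank ℝ E = m + 1) [IsLocallyFiniteMeasure κ]
    (hD : SOD m κ W c K q ζ η) (hI : Inp m κ W ζ η C₀ J₀ B) (CM : ℕ → ℝ) (CR : ℝ) :
    ∀ C₂ : ℝ, 0 ≤ C₂ →
    ∃ C : ℝ, 0 ≤ C ∧ ∀ᶠ t in nearS m κ CM CR, ∀ e : ℝ, 0 ≤ e →
      DD t.μ W (J₀ + 1) + TG t.μ t.T W (J₀ + 1) ≤ C₂ * (‖co W ζ t.μ‖ ^ 2 + e) →
      ‖co W ζ t.μ‖ ^ 2 ≤ C * (√(dis t.μ t.T t.H) + dis t.μ t.T t.H + rsq W η t.μ + e) := by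
  intro C₂ hC₂
  have hK := hD.K_nn
  have hW := hD.tube
  obtain ⟨c₁, hc₁, hco⟩ := exists_quad_coer (B := B) fun a ha => hD.nd a fun i => by
    rw [hI.quad]; exact ha i
  set ε := c₁ / (2 * (k + 1) * (C₂ + 1)) with hε
  have hε0 : 0 < ε := by positivity
  have hεk : (k : ℝ) * (ε * C₂) ≤ c₁ / 2 := by
    rw [hε, div_mul_eq_mul_div, mul_div_assoc', div_le_div_iff₀ (by positivity) (by norm_num)]
    have h1 : 0 ≤ (k : ℝ) := k.cast_nonneg
    nlinarith [mul_nonneg h1 hC₂, mul_nonneg hc₁.le h1, mul_nonneg hc₁.le hC₂,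
      mul_nonneg hc₁.le (mul_nonneg h1 hC₂)]
  obtain ⟨C₃, hC₃, hst⟩ := static_rate hm hE hD hI CM CR ε hε0
  set L := 2 * K ^ 2 * √(CM (2 * q)) with hL
  have hL0 : 0 ≤ L := by positivity
  set C₄ := (k : ℝ) * (L + C₃ + ε * C₂) with hC₄
  have hC₄0 : 0 ≤ C₄ := by positivity
  refine ⟨2 * C₄ / c₁, by positivity, ?_⟩
  filter_upwards [hst, nearS_mem] with t ht hs e he hmain
  obtain ⟨hsl, hmo, -⟩ := hs
  have hr := rsq_nonneg W η t.μ
  have hd := dis_nonneg (μ := t.μ) (T := t.T) (H := t.H)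
  have hsd := Real.sqrt_nonneg (dis t.μ t.T t.H)
  set A := ‖co W ζ t.μ‖ ^ 2 with hA
  have hA0 : 0 ≤ A := sq_nonneg _
  have h1 : ∀ i, |∑ p, ∑ r, co W ζ t.μ p * co W ζ t.μ r * B p r i|
      ≤ L * √(dis t.μ t.T t.H) + ε * (C₂ * (A + e)) + C₃ * (dis t.μ t.T t.H + rsq W η t.μ) := by
    intro i
    rw [← hI.quad]
    have h2 := ht i
    have h3 : |EE t.μ t.T t.H (fun y => W y * ζ i y)| ≤ L * √(dis t.μ t.T t.H) := by
      have hpg : PG (fun y => W y * ζ i y) := hW.pg.mul (hD.pgζ i)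
      refine (abs_EE_le hsl hpg (C := 2 * K ^ 2) (p := q) (by positivity) (fun x => ?_)
        (hmo _)).trans (le_of_eq (by rw [hL]))
      rw [grad_mul (hW.diff x) ((hD.pgζ i).diff x)]
      refine (norm_add_le _ _).trans ?_
      rw [norm_smul, norm_smul, Real.norm_eq_abs, Real.norm_eq_abs]
      have g1 := hW.b0 x
      have g2 := hD.b1 i x
      have g3 := hW.b1 x
      have g4 := hD.b0 i x
      have g5 : |W x| * ‖grad (ζ i) x‖ ≤ K * (K * (1 + ‖x‖) ^ q) := by gcongr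
      have g6 : |ζ i x| * ‖grad W x‖ ≤ (K * (1 + ‖x‖) ^ q) * K := by gcongr
      linarith
    have h4 : |Phi κ W (lc ζ (co W ζ t.μ)) (lc ζ (co W ζ t.μ)) (ζ i)|
        ≤ |EE t.μ t.T t.H (fun y => W y * ζ i y)|
          + |EE t.μ t.T t.H (fun y => W y * ζ i y)
            - Phi κ W (lc ζ (co W ζ t.μ)) (lc ζ (co W ζ t.μ)) (ζ i)| := by
      have := abs_sub_abs_le_abs_sub (Phi κ W (lc ζ (co W ζ t.μ)) (lc ζ (co W ζ t.μ)) (ζ i))
        (EE t.μ t.T t.H (fun y => W y * ζ i y))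
      rw [abs_sub_comm] at this
      linarith
    have h5 := mul_le_mul_of_nonneg_left hmain hε0.le
    linarith
  have h2 := hco (co W ζ t.μ)
  have h3 : ∑ i, |∑ p, ∑ r, co W ζ t.μ p * co W ζ t.μ r * B p r i|
      ≤ (k : ℝ) * (L * √(dis t.μ t.T t.H) + ε * (C₂ * (A + e))
        + C₃ * (dis t.μ t.T t.H + rsq W η t.μ)) := by
    refine (Finset.sum_le_sum fun i _ => h1 i).trans (le_of_eq ?_)
    rw [Finset.sum_const, Finset.card_univ, Fintype.card_fin, nsmul_eq_mul]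
  have h4 : (k : ℝ) * (ε * C₂) * A ≤ c₁ / 2 * A := mul_le_mul_of_nonneg_right hεk hA0
  have hk : (0 : ℝ) ≤ k := k.cast_nonneg
  set D := √(dis t.μ t.T t.H) + dis t.μ t.T t.H + rsq W η t.μ + e with hDd
  have b1 : (k : ℝ) * L * √(dis t.μ t.T t.H) ≤ (k : ℝ) * L * D :=
    mul_le_mul_of_nonneg_left (by rw [hDd]; linarith) (by positivity)
  have b2 : (k : ℝ) * C₃ * (dis t.μ t.T t.H + rsq W η t.μ) ≤ (k : ℝ) * C₃ * D :=
    mul_le_mul_of_nonneg_left (by rw [hDd]; linarith) (by positivity)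
  have b3 : (k : ℝ) * (ε * C₂) * e ≤ (k : ℝ) * (ε * C₂) * D :=
    mul_le_mul_of_nonneg_left (by rw [hDd]; linarith) (by positivity)
  have h5 : c₁ / 2 * A ≤ C₄ * D := by
    have e1 : C₄ * D = (k : ℝ) * L * D + (k : ℝ) * C₃ * D + (k : ℝ) * (ε * C₂) * D := by
      rw [hC₄]; ring
    rw [e1]
    linarith
  rw [div_mul_eq_mul_div, le_div_iff₀ hc₁]
  linarith

end Vale.Agent.P218.H588
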